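import Crest.Prelude.Def_StreamLearn

/-!
# R322 (S0499): definitions

Memory/sample lower bound for noiseless linear regression with `A d²` bits.
`E d = ℝ^d`, windows of `m` Gaussian samples, cells of side `η` for the measurements, "nice" measures
(concentrated on a ball, no small ball too heavy), Markov machine and its success probability.
-/

set_option autoImplicit false

namespace Crest.Agent.R322

open MeasureTheory ProbabilityTheory Crest.StreamLearn
open scoped ENNReal

noncomputable section

/-- `m` independent standard Gaussian vectors of `ℝ^d` -/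
abbrev gm (d m : ℕ) : Measure (Fin m → E d) := Measure.pi fun _ : Fin m => stdGaussian (E d)

/-- the measurements of the signal `s` along the samples `X` -/
def meas {d m : ℕ} (X : Fin m → E d) (s : E d) : Fin m → ℝ := fun t => inner ℝ (X t) s

/-- the cell (half open cube of side `η`) containing `y` -/
def cell {m : ℕ} (η : ℝ) (y : Fin m → ℝ) : Fin m → ℤ := fun t => ⌊y t / η⌋

/-- distance of `u` to the subspace `W` -/
def dW {d : ℕ} (W : Submodule ℝ (E d)) (u : E d) : ℝ := ‖u - W.starProjection u‖

/-- `μ` lives on `closedBall z R` and every ball of radius `τ R`, `τ ≤ 1`, has mass at most `2 τ^g |μ|`. -/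
structure Nice {d : ℕ} (g : ℕ) (μ : Measure (E d)) (z : E d) (R : ℝ) : Prop where
  pos : 0 < R
  supp : μ (Metric.closedBall z R)ᶜ = 0
  nc : ∀ (w : E d) (τ : ℝ), 0 < τ → τ ≤ 1 →
    μ (Metric.closedBall w (τ * R)) ≤ 2 * ENNReal.ofReal τ ^ g * μ Set.univ

/-- the uniform law of the sphere, as a measure on `ℝ^d` -/
def sph (d : ℕ) : Measure (E d) := (sphereUniform d).map Subtype.val

/-- success probability of a Markov machine with transition probabilities `M j v v' s` (window `j`, from
`v` to `v'`, for the fixed signal `s`), `J` windows left, currently before window `j` in state `v` -/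
def pr {d : ℕ} {V : Type} [Fintype V] (M : ℕ → V → V → E d → ℝ≥0∞) (out : V → E d) (ε : ℝ) :
    ℕ → ℕ → V → E d → ℝ≥0∞
  | 0, _, v, s => Set.indicator (Metric.closedBall (out v) ε) 1 s
  | J + 1, j, v, s => ∑ v', M j v v' s * pr M out ε J (j + 1) v' s

/-- run a machine (one step transitions `tr t v x y`) over `n` samples from time `t` in state `v` -/
def runY {d : ℕ} {V : Type} (tr : ℕ → V → E d → ℝ → V) :
    (n : ℕ) → ℕ → V → (Fin n → E d) → (Fin n → ℝ) → V
  | 0, _, v, _, _ => v
  | n + 1, t, v, X, y => runY tr n (t + 1) (tr t v (X 0) (y 0)) (fun i => X i.succ) (fun i => y i.succ)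

/-- window transition probabilities of a machine, windows of `m` samples -/
def winM {d : ℕ} {V : Type} (tr : ℕ → V → E d → ℝ → V) (m : ℕ) (j : ℕ) (v v' : V) (s : E d) : ℝ≥0∞ :=
  gm d m {X | runY tr m (j * m) v X (meas X s) = v'}

end

end Crest.Agent.R322
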