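import Crest.Agent.R322.Defs

/-!
# R322 piece P1b: isometry invariance of the sphere measure and the second moment of projections

`sph_map`: from `toSphere_apply'` and invariance of volume under linear isometries.
`sph_proj`: `∫ ⟪s,b i⟫² = 1/d` for an orthonormal basis (all equal by `sph_map`, sum is `∫ ‖s‖² = 1`), then take a basis
adapted to `U` (or `‖P_U s‖² = Σ_{i<finrank U} ⟪s, e_i⟫²` for an orthonormal basis `e` of `U`, each term `1/d` by `sph_map`).
-/

set_option autoImplicit false

namespace Crest.Agent.R322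

open MeasureTheory ProbabilityTheory Crest.StreamLearn
open scoped ENNReal

theorem sph_map {d : ℕ} (f : E d ≃ₗᵢ[ℝ] E d) : (sph d).map f = sph d := by
  sorry

theorem sph_proj {d : ℕ} (hd : 1 ≤ d) (U : Submodule ℝ (E d)) :
    ∫⁻ s, ENNReal.ofReal (‖U.starProjection s‖ ^ 2) ∂(sph d) ≤
      ENNReal.ofReal ((Module.finrank ℝ U : ℝ) / d) := by
  sorry

end Crest.Agent.R322
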