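import Crest.Agent.R322.P10Fubini
import Crest.Agent.R322.P1bSphere

/-!
# R322 piece P10d: few samples

`base`: for fixed `xs` let `U = span (range xs)`, `O s = 2 P_U s - s` (reflection): `L.output ω (O s) xs = L.output ω s xs` because
`⟪x_t, O s⟫ = ⟪x_t, s⟫`; `A = {s : s ∈ closedBall (output) ε}`: on `A ∩ O⁻¹ A`, `‖s - O s‖ ≤ 2ε ≤ 1/5` so `‖P_U s‖² ≥ 99/100`, which has
probability `≤ (T/d)/(99/100) ≤ 26/100` by `sph_proj` and Markov; `2 σ(A) - 1 ≤ σ(A ∩ O⁻¹A)` by `sph_map`.  Integrate over `xs` (Tonelli,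
`output_measSet`).
-/

set_option autoImplicit false

namespace Crest.Agent.R322

open MeasureTheory ProbabilityTheory Crest.StreamLearn
open scoped ENNReal

theorem base {d T M : ℕ} (hd : 1 ≤ d) (hT : 4 * T ≤ d) (L : RLearner d T M) (ω : L.Ω) (ε : ℝ) (hε : 0 < ε)
    (hε1 : ε ≤ 1 / 10) :
    ∫⁻ s, gm d T {xs | s ∈ Metric.closedBall (L.output ω s xs) ε} ∂(sph d) ≤
      ENNReal.ofReal (64 / 100) := by
  sorry

end Crest.Agent.R322
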