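import Crest.Agent.R322.P1Sphere

/-!
# R322 piece P10e: tiny accuracy

`counting`: the output lies in the finite set `{L.out i ω q : i ≤ T, q}` (the stopping index of `L.run` is at most `T`: induction on the `foldl`
over `List.finRange T`); the event for `s` is empty unless `s` lies in the union of the balls; `sph_ball`.
-/

set_option autoImplicit false

namespace Crest.Agent.R322

open MeasureTheory ProbabilityTheory Crest.StreamLearn
open scoped ENNReal

theorem counting {d T M : ℕ} (hd : 1 ≤ d) (L : RLearner d T M) (ω : L.Ω) (ε : ℝ) (hε : 0 < ε) (hε1 : ε ≤ 1) :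
    ∫⁻ s, gm d T {xs | s ∈ Metric.closedBall (L.output ω s xs) ε} ∂(sph d) ≤
      2 ^ M * (T + 1) * (2 * 3 ^ d * ENNReal.ofReal ε ^ (d - 1)) := by
  sorry

end Crest.Agent.R322
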