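import Crest.Agent.R322.Defs

/-!
# R322 piece P10b: the success probability of a machine as a sum over windows

`runY_add`: running over `a + b` samples = running over the first `a`, then the last `b`.  `gm d (a+b)` is the product of `gm d a` and
`gm d b` under `Fin.append`/`MeasurableEquiv` (or peel off one sample at a time with `MeasurableEquiv.piFinSuccAbove`, i.e. show that both sides of
`runY_split` satisfy the same one-sample recursion).
`pr_eq`: identity transitions after time `T`, so `T` samples may be replaced by `J * m`; induct on `J`.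
-/

set_option autoImplicit false

namespace Crest.Agent.R322

open MeasureTheory ProbabilityTheory Crest.StreamLearn
open scoped ENNReal

variable {d : ℕ} {V : Type}

/-- joint measurability of `runY` -/
theorem runY_meas [Fintype V] (tr : ℕ → V → E d → ℝ → V)
    (htr : ∀ t v v', MeasurableSet {p : E d × ℝ | tr t v p.1 p.2 = v'}) (n t : ℕ) (v v' : V) :
    MeasurableSet {p : (Fin n → E d) × (Fin n → ℝ) | runY tr n t v p.1 p.2 = v'} := by
  induction n generalizing t v with
  | zero =>
    simp only [runY]
    exact MeasurableSet.const _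
  | succ n ih =>
    have h1 : {p : (Fin (n + 1) → E d) × (Fin (n + 1) → ℝ) | runY tr (n + 1) t v p.1 p.2 = v'} =
        ⋃ u : V, ((fun p : (Fin (n + 1) → E d) × (Fin (n + 1) → ℝ) => (p.1 0, p.2 0)) ⁻¹'
            {p : E d × ℝ | tr t v p.1 p.2 = u}) ∩
          ((fun p : (Fin (n + 1) → E d) × (Fin (n + 1) → ℝ) =>
            ((fun i : Fin n => p.1 i.succ), (fun i : Fin n => p.2 i.succ))) ⁻¹'
            {p : (Fin n → E d) × (Fin n → ℝ) | runY tr n (t + 1) u p.1 p.2 = v'}) := by
      ext p
      simp only [Set.mem_setOf_eq, Set.mem_iUnion, Set.mem_inter_iff, Set.mem_preimage, runY]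
      constructor
      · intro h
        exact ⟨_, rfl, h⟩
      · rintro ⟨u, hu, h⟩
        rw [hu]
        exact h
    rw [h1]
    refine MeasurableSet.iUnion fun u => MeasurableSet.inter ?_ ?_
    · refine (htr t v u).preimage ?_
      exact ((measurable_pi_apply 0).comp measurable_fst).prodMk
        ((measurable_pi_apply 0).comp measurable_snd)
    · refine (ih (t + 1) u).preimage ?_
      refine Measurable.prodMk ?_ ?_
      · exact measurable_pi_lambda _ fun i => (measurable_pi_apply _).comp measurable_fst
      · exact measurable_pi_lambda _ fun i => (measurable_pi_apply _).comp measurable_snd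

namespace P10Splitaux

theorem meas_measurable (n : ℕ) (s : E d) :
    Measurable (fun X : Fin n → E d => meas X s) := by
  refine measurable_pi_lambda _ fun i => ?_
  show Measurable (fun X : Fin n → E d => (inner ℝ (X i) s : ℝ))
  exact (measurable_pi_apply i).inner measurable_const

theorem run_set_meas [Fintype V] (tr : ℕ → V → E d → ℝ → V)
    (htr : ∀ t v v', MeasurableSet {p : E d × ℝ | tr t v p.1 p.2 = v'}) (n t : ℕ) (v v' : V)
    (s : E d) : MeasurableSet {X : Fin n → E d | runY tr n t v X (meas X s) = v'} :=
  (runY_meas tr htr n t v v').preimage (measurable_id.prodMk (meas_measurable n s))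

theorem run_one [Fintype V] (tr : ℕ → V → E d → ℝ → V)
    (htr : ∀ t v v', MeasurableSet {p : E d × ℝ | tr t v p.1 p.2 = v'}) (n t : ℕ) (v v' : V)
    (s : E d) :
    gm d (n + 1) {X | runY tr (n + 1) t v X (meas X s) = v'} =
      ∑ u, stdGaussian (E d) {x | tr t v x (inner ℝ x s) = u} *
        gm d n {X | runY tr n (t + 1) u X (meas X s) = v'} := by
  classical
  have hA : ∀ u, MeasurableSet {x : E d | tr t v x (inner ℝ x s) = u} := by
    intro u
    exact (htr t v u).preimage (measurable_id.prodMk (measurable_id.inner measurable_const))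
  have hB : ∀ u, MeasurableSet {X : Fin n → E d | runY tr n (t + 1) u X (meas X s) = v'} :=
    fun u => run_set_meas tr htr n (t + 1) u v' s
  have hmp := measurePreserving_piFinSuccAbove (fun _ : Fin (n + 1) => stdGaussian (E d)) 0
  set S' : Set (E d × (Fin n → E d)) := ⋃ u : V, {x : E d | tr t v x (inner ℝ x s) = u} ×ˢ
    {X : Fin n → E d | runY tr n (t + 1) u X (meas X s) = v'} with hS'
  have hS'm : MeasurableSet S' := MeasurableSet.iUnion fun u => (hA u).prod (hB u)
  have h1 : {X : Fin (n + 1) → E d | runY tr (n + 1) t v X (meas X s) = v'} =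
      (MeasurableEquiv.piFinSuccAbove (fun _ => E d) 0) ⁻¹' S' := by
    ext X
    simp only [hS', Set.mem_setOf_eq, Set.mem_preimage, Set.mem_iUnion, Set.mem_prod, runY]
    constructor
    · intro h
      exact ⟨_, rfl, h⟩
    · rintro ⟨u, hu, h⟩
      change tr t v (X 0) (inner ℝ (X 0) s) = u at hu
      rw [← hu] at h
      exact h
  have h2 : gm d (n + 1) {X | runY tr (n + 1) t v X (meas X s) = v'} =
      ((stdGaussian (E d)).prod (gm d n)) S' := by
    rw [h1]
    exact hmp.measure_preimage hS'm.nullMeasurableSet
  rw [h2, hS', measure_iUnion, tsum_fintype]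
  · refine Finset.sum_congr rfl fun u _ => ?_
    rw [Measure.prod_prod]
  · intro u w huw
    rw [Function.onFun, Set.disjoint_left]
    rintro ⟨x, X⟩ ⟨h3, _⟩ ⟨h4, _⟩
    exact huw (h3.symm.trans h4)
  · intro u
    exact (hA u).prod (hB u)

theorem run_zero (tr : ℕ → V → E d → ℝ → V) (t : ℕ) (v v' : V) (s : E d) [DecidableEq V] :
    gm d 0 {X | runY tr 0 t v X (meas X s) = v'} = if v = v' then 1 else 0 := by
  simp only [runY]
  by_cases h : v = v'
  · rw [if_pos h]
    have : {X : Fin 0 → E d | v = v'} = Set.univ := by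
      ext X; simp [h]
    rw [this]
    exact measure_univ
  · rw [if_neg h]
    have : {X : Fin 0 → E d | v = v'} = ∅ := by
      ext X; simp [h]
    rw [this, measure_empty]

theorem split_aux [Fintype V] (tr : ℕ → V → E d → ℝ → V)
    (htr : ∀ t v v', MeasurableSet {p : E d × ℝ | tr t v p.1 p.2 = v'}) (s : E d)
    (P : ℕ → ℕ → V → V → ℝ≥0∞)
    (hP : ∀ n t v v', P n t v v' = gm d n {X | runY tr n t v X (meas X s) = v'})
    (a b t : ℕ) (v v' : V) :
    P (a + b) t v v' = ∑ u, P a t v u * P b (t + a) u v' := by
  classical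
  have hrec : ∀ n t v v', P (n + 1) t v v' =
      ∑ u, stdGaussian (E d) {x | tr t v x (inner ℝ x s) = u} * P n (t + 1) u v' := by
    intro n t v v'
    rw [hP, run_one tr htr]
    refine Finset.sum_congr rfl fun u _ => ?_
    rw [hP]
  induction a generalizing t v with
  | zero =>
    have h0 : ∀ u, P 0 t v u = if v = u then 1 else 0 := by
      intro u
      rw [hP, run_zero]
    simp only [h0, Nat.zero_add, Nat.add_zero, ite_mul, one_mul, zero_mul, Finset.sum_ite_eq,
      Finset.mem_univ, if_true]
  | succ a ih =>
    have e1 : a + 1 + b = a + b + 1 := by omega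
    have e2 : t + (a + 1) = t + 1 + a := by omega
    rw [e1, hrec, e2]
    simp only [ih, hrec a]
    simp only [Finset.mul_sum, Finset.sum_mul]
    rw [Finset.sum_comm]
    refine Finset.sum_congr rfl fun u _ => Finset.sum_congr rfl fun w _ => ?_
    rw [mul_assoc]

end P10Splitaux

open P10Splitaux

/-- the Markov property for a fixed signal -/
theorem runY_split [Fintype V] (tr : ℕ → V → E d → ℝ → V)
    (htr : ∀ t v v', MeasurableSet {p : E d × ℝ | tr t v p.1 p.2 = v'}) (a b t : ℕ) (v v' : V) (s : E d) :
    gm d (a + b) {X | runY tr (a + b) t v X (meas X s) = v'} =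
      ∑ u, gm d a {X | runY tr a t v X (meas X s) = u} *
        gm d b {X | runY tr b (t + a) u X (meas X s) = v'} :=
  split_aux tr htr s (fun n t v v' => gm d n {X | runY tr n t v X (meas X s) = v'})
    (fun _ _ _ _ => rfl) a b t v v'

namespace P10Splitaux

theorem run_id (tr : ℕ → V → E d → ℝ → V) (T : ℕ)
    (hid : ∀ t, T ≤ t → ∀ v x y, tr t v x y = v) (n t : ℕ) (ht : T ≤ t) (v : V)
    (X : Fin n → E d) (y : Fin n → ℝ) : runY tr n t v X y = v := by
  induction n generalizing t v with
  | zero => rfl
  | succ n ih =>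
    rw [runY, hid t ht]
    exact ih (t + 1) (by omega) v _ _

theorem pr_sum [Fintype V] (tr : ℕ → V → E d → ℝ → V)
    (htr : ∀ t v v', MeasurableSet {p : E d × ℝ | tr t v p.1 p.2 = v'})
    (out : V → E d) (ε : ℝ) (m : ℕ) (s : E d)
    (P : ℕ → ℕ → V → V → ℝ≥0∞)
    (hP : ∀ n t v v', P n t v v' = gm d n {X | runY tr n t v X (meas X s) = v'})
    (J j : ℕ) (v : V) :
    pr (winM tr m) out ε J j v s =
      ∑ v', P (J * m) (j * m) v v' * Set.indicator (Metric.closedBall (out v') ε) 1 s := by
  classical
  induction J generalizing j v with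
  | zero =>
    have h0 : ∀ u, P 0 (j * m) v u = if v = u then 1 else 0 := by
      intro u
      rw [hP, run_zero]
    simp only [pr, Nat.zero_mul, h0, ite_mul, one_mul, zero_mul, Finset.sum_ite_eq,
      Finset.mem_univ, if_true]
  | succ J ih =>
    have e1 : (J + 1) * m = m + J * m := by ring
    have e2 : (j + 1) * m = j * m + m := by ring
    rw [pr, e1]
    simp only [ih, split_aux tr htr s P hP m (J * m)]
    simp only [Finset.mul_sum, Finset.sum_mul]
    rw [Finset.sum_comm]
    refine Finset.sum_congr rfl fun u _ => Finset.sum_congr rfl fun w _ => ?_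
    rw [winM, ← hP, e2, mul_assoc]

end P10Splitaux

theorem pr_eq [Fintype V] (tr : ℕ → V → E d → ℝ → V)
    (htr : ∀ t v v', MeasurableSet {p : E d × ℝ | tr t v p.1 p.2 = v'})
    (out : V → E d) (ε : ℝ) (m J T : ℕ) (hT : T ≤ J * m)
    (hid : ∀ t, T ≤ t → ∀ v x y, tr t v x y = v) (v : V) (s : E d) :
    gm d T {X | s ∈ Metric.closedBall (out (runY tr T 0 v X (meas X s))) ε} =
      pr (winM tr m) out ε J 0 v s := by
  classical
  set P : ℕ → ℕ → V → V → ℝ≥0∞ :=
    fun n t v v' => gm d n {X | runY tr n t v X (meas X s) = v'} with hP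
  rw [pr_sum tr htr out ε m s P (fun _ _ _ _ => rfl)]
  have h1 : ∀ v', P (J * m) (0 * m) v v' = P T 0 v v' := by
    intro v'
    have e1 : J * m = T + (J * m - T) := by omega
    rw [e1, Nat.zero_mul, split_aux tr htr s P (fun _ _ _ _ => rfl)]
    have h2 : ∀ u, P (J * m - T) (0 + T) u v' = if u = v' then 1 else 0 := by
      intro u
      simp only [hP]
      simp only [run_id tr T hid (J * m - T) (0 + T) (by omega) u]
      by_cases h : u = v'
      · rw [if_pos h]
        have : {X : Fin (J * m - T) → E d | u = v'} = Set.univ := by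
          ext X; simp [h]
        rw [this]
        exact measure_univ
      · rw [if_neg h]
        have : {X : Fin (J * m - T) → E d | u = v'} = ∅ := by
          ext X; simp [h]
        rw [this, measure_empty]
    simp only [h2, mul_ite, mul_one, mul_zero, Finset.sum_ite_eq', Finset.mem_univ, if_true]
  simp only [h1]
  have h3 : {X : Fin T → E d | s ∈ Metric.closedBall (out (runY tr T 0 v X (meas X s))) ε} =
      ⋃ u : V, {X : Fin T → E d | runY tr T 0 v X (meas X s) = u ∧
        s ∈ Metric.closedBall (out u) ε} := by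
    ext X
    simp only [Set.mem_setOf_eq, Set.mem_iUnion]
    constructor
    · intro h
      exact ⟨_, rfl, h⟩
    · rintro ⟨u, hu, h⟩
      rw [hu]
      exact h
  have h4 : ∀ u : V, {X : Fin T → E d | runY tr T 0 v X (meas X s) = u ∧
        s ∈ Metric.closedBall (out u) ε} =
      if s ∈ Metric.closedBall (out u) ε then {X : Fin T → E d | runY tr T 0 v X (meas X s) = u}
        else ∅ := by
    intro u
    by_cases h : s ∈ Metric.closedBall (out u) ε
    · rw [if_pos h]
      ext X
      simp only [Set.mem_setOf_eq, and_iff_left h]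
    · rw [if_neg h]
      ext X
      simp only [Set.mem_setOf_eq, Set.mem_empty_iff_false, iff_false, not_and]
      exact fun _ => h
  rw [h3, measure_iUnion, tsum_fintype]
  · refine Finset.sum_congr rfl fun u _ => ?_
    rw [h4]
    by_cases h : s ∈ Metric.closedBall (out u) ε
    · rw [if_pos h, Set.indicator_of_mem h]
      simp [hP]
    · rw [if_neg h, Set.indicator_of_notMem h, measure_empty, mul_zero]
  · intro u w huw
    rw [Function.onFun, Set.disjoint_left]
    rintro X ⟨h3, _⟩ ⟨h4, _⟩
    exact huw (h3.symm.trans h4)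
  · intro u
    rw [h4]
    split_ifs
    · exact run_set_meas tr htr T 0 v u s
    · exact MeasurableSet.empty

end Crest.Agent.R322
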