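import Crest.Agent.R322.Defs

/-!
# R322 piece P1: the uniform measure of the sphere

`sph_univ`: probability measure (`d ≥ 1`).  `sph_ball`: a subset of the sphere inside `closedBall w r` (`r ≤ 1`): the cone
`{t • a : t ∈ (0,1), a ∈ A}` is covered by the balls `closedBall ((i r) • w) (3 r)`, `i = 0..⌊1/r⌋`, hence
`toSphere A = d * vol (Ioo 0 1 • A) ≤ d (1/r + 1) (3r)^d vol(ball 0 1)` and `toSphere univ = d * vol (ball 0 1)`
(`Measure.toSphere_apply'`, `Measure.addHaar_closedBall`).
-/

set_option autoImplicit false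

namespace Crest.Agent.R322

open MeasureTheory ProbabilityTheory Crest.StreamLearn
open scoped ENNReal

theorem sph_prob {d : ℕ} (hd : 1 ≤ d) : IsProbabilityMeasure (sph d) := by
  sorry

theorem sph_compl {d : ℕ} : sph d (Metric.closedBall 0 1)ᶜ = 0 := by
  sorry

theorem sph_ball {d : ℕ} (hd : 1 ≤ d) (w : E d) (r : ℝ) (hr : 0 < r) (hr1 : r ≤ 1) :
    sph d (Metric.closedBall w r) ≤ 2 * 3 ^ d * ENNReal.ofReal r ^ (d - 1) := by
  sorry

end Crest.Agent.R322
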