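import Crest.Agent.R322.P10Run
import Crest.Agent.R322.P10Split
import Crest.Agent.R322.P1Sphere

/-!
# R322 piece P10c: from the success probability of a learner to fixed seeds

The event is measurable (states and stopping indices are finitely many / countable; `out_measurable`, `trans_measurable`, …), Tonelli, and
`arccos ⟪ŝ,s⟫ ≤ ε` implies `‖ŝ - s‖ ≤ ε` for unit vectors (`‖ŝ-s‖² = 2 - 2⟪ŝ,s⟫ ≤ 2 - 2 cos ε ≤ ε²`).
`sph d` is a pushforward of `sphereUniform d`.
-/

set_option autoImplicit false

namespace Crest.Agent.R322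

open MeasureTheory ProbabilityTheory Crest.StreamLearn
open scoped ENNReal

namespace P10FubiniAux

/-- angle versus distance -/
theorem mem_ball_of_arccos {d : ℕ} (o s : E d) (ho : ‖o‖ = 1) (hs : ‖s‖ = 1) (ε : ℝ) (hε : 0 < ε)
    (h : Real.arccos (inner ℝ o s) ≤ ε) : s ∈ Metric.closedBall o ε := by
  rw [Metric.mem_closedBall, dist_eq_norm]
  have h1 : |inner ℝ o s| ≤ 1 := by
    have := abs_real_inner_le_norm o s
    rwa [ho, hs, one_mul] at this
  have h2 : Real.cos (Real.arccos (inner ℝ o s)) = inner ℝ o s :=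
    Real.cos_arccos (abs_le.1 h1).1 (abs_le.1 h1).2
  have h3 := Real.one_sub_sq_div_two_le_cos (x := Real.arccos (inner ℝ o s))
  rw [h2] at h3
  have h4 : ‖s - o‖ ^ 2 = 2 - 2 * inner ℝ o s := by
    rw [norm_sub_sq_real, hs, ho, real_inner_comm]; ring
  have h5 := Real.arccos_nonneg (inner ℝ o s)
  have h6 : Real.arccos (inner ℝ o s) ^ 2 ≤ ε ^ 2 := by
    apply pow_le_pow_left₀ h5 h
  have h7 : ‖s - o‖ ^ 2 ≤ ε ^ 2 := by rw [h4]; linarith
  exact (pow_le_pow_iff_left₀ (norm_nonneg _) hε.le two_ne_zero).1 h7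

/-- one step of a run -/
noncomputable def stp {d T M : ℕ} (L : RLearner d T M) (ω : L.Ω) (s : E d) (xs : Fin T → E d)
    (st : L.St × Option ℕ) (t : Fin T) : L.St × Option ℕ :=
  if st.2.isSome then st else
      if (L.trans t ω st.1 (xs t) (inner ℝ (xs t) s)).2
      then ((L.trans t ω st.1 (xs t) (inner ℝ (xs t) s)).1, some (t.val + 1))
      else ((L.trans t ω st.1 (xs t) (inner ℝ (xs t) s)).1, none)

theorem run_eq {d T M : ℕ} (L : RLearner d T M) (ω : L.Ω) (s : E d) (xs : Fin T → E d) :
    L.run ω s xs = (List.finRange T).foldl (stp L ω s xs)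
      (L.init ω, if L.stopFirst ω then some 0 else none) := rfl

/-- fibers over a countable type determine measurability of composed events -/
theorem meas_bind {Z W : Type} [MeasurableSpace Z] [Countable W] (g : Z → W)
    (hg : ∀ w, MeasurableSet {z | g z = w}) (P : W → Z → Prop)
    (hP : ∀ w, MeasurableSet {z | P w z}) : MeasurableSet {z | P (g z) z} := by
  have : {z | P (g z) z} = ⋃ w, ({z | g z = w} ∩ {z | P w z}) := by
    ext z
    simp only [Set.mem_setOf_eq, Set.mem_iUnion, Set.mem_inter_iff]
    constructor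
    · intro h; exact ⟨g z, rfl, h⟩
    · rintro ⟨w, rfl, h⟩; exact h
  rw [this]
  exact MeasurableSet.iUnion fun w => (hg w).inter (hP w)

theorem run_meas {d T M : ℕ} (L : RLearner d T M) :
    letI : MeasurableSpace L.Ω := L.mΩ
    ∀ w : L.St × Option ℕ,
      MeasurableSet {z : Sphere d × (L.Ω × (Fin T → E d)) | L.run z.2.1 z.1 z.2.2 = w} := by
  letI : MeasurableSpace L.Ω := L.mΩ
  letI : MeasurableSpace L.St := ⊤
  haveI : Fintype L.St := L.fin
  haveI : MeasurableSingletonClass L.St := ⟨fun _ => trivial⟩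
  have hstep : ∀ (t : Fin T) (w w' : L.St × Option ℕ),
      MeasurableSet {z : Sphere d × (L.Ω × (Fin T → E d)) |
        stp L z.2.1 z.1 z.2.2 w t = w'} := by
    intro t w w'
    unfold stp
    by_cases h : w.2.isSome = true
    · simp only [h, if_true]
      exact MeasurableSet.const _
    · have hm : Measurable fun z : Sphere d × (L.Ω × (Fin T → E d)) =>
          (z.2.1, (z.2.2 t, (inner ℝ (z.2.2 t) (z.1 : E d) : ℝ))) := by
        have h1 : Measurable fun z : Sphere d × (L.Ω × (Fin T → E d)) => z.2.2 t :=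
          (measurable_pi_apply t).comp (measurable_snd.comp measurable_snd)
        have h2 : Measurable fun z : Sphere d × (L.Ω × (Fin T → E d)) => (z.1 : E d) :=
          measurable_subtype_coe.comp measurable_fst
        exact (measurable_fst.comp measurable_snd).prodMk (h1.prodMk (h1.inner h2))
      obtain ⟨ht1, ht2⟩ := L.trans_measurable t w.1
      have hm1 : Measurable fun z : Sphere d × (L.Ω × (Fin T → E d)) =>
          (L.trans t z.2.1 w.1 (z.2.2 t) (inner ℝ (z.2.2 t) (z.1 : E d))).1 := ht1.comp hm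
      have hm2 : Measurable fun z : Sphere d × (L.Ω × (Fin T → E d)) =>
          (L.trans t z.2.1 w.1 (z.2.2 t) (inner ℝ (z.2.2 t) (z.1 : E d))).2 := ht2.comp hm
      have e1 : {z : Sphere d × (L.Ω × (Fin T → E d)) |
          (if w.2.isSome = true then w else
            if (L.trans t z.2.1 w.1 (z.2.2 t) (inner ℝ (z.2.2 t) (z.1 : E d))).2 = true
            then ((L.trans t z.2.1 w.1 (z.2.2 t) (inner ℝ (z.2.2 t) (z.1 : E d))).1,
              some (t.val + 1))
            else ((L.trans t z.2.1 w.1 (z.2.2 t) (inner ℝ (z.2.2 t) (z.1 : E d))).1, none)) = w'}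
          = {z | (L.trans t z.2.1 w.1 (z.2.2 t) (inner ℝ (z.2.2 t) (z.1 : E d))).1 = w'.1} ∩
            (({z | (L.trans t z.2.1 w.1 (z.2.2 t) (inner ℝ (z.2.2 t) (z.1 : E d))).2 = true} ∩
              {_z | some (t.val + 1) = w'.2}) ∪
            ({z | (L.trans t z.2.1 w.1 (z.2.2 t) (inner ℝ (z.2.2 t) (z.1 : E d))).2 = false} ∩
              {_z | none = w'.2})) := by
        ext z
        simp only [h, Set.mem_setOf_eq, Set.mem_inter_iff, Set.mem_union]
        rcases w' with ⟨a, b⟩
        cases hb : (L.trans t z.2.1 w.1 (z.2.2 t) (inner ℝ (z.2.2 t) (z.1 : E d))).2 <;>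
          simp [Prod.ext_iff]
      rw [e1]
      refine MeasurableSet.inter (hm1 (measurableSet_singleton _)) (MeasurableSet.union ?_ ?_)
      · exact (hm2 (measurableSet_singleton _)).inter (MeasurableSet.const _)
      · exact (hm2 (measurableSet_singleton _)).inter (MeasurableSet.const _)
  have hfold : ∀ (l : List (Fin T)) (g : Sphere d × (L.Ω × (Fin T → E d)) → L.St × Option ℕ),
      (∀ w, MeasurableSet {z | g z = w}) →
      ∀ w, MeasurableSet {z | l.foldl (stp L z.2.1 z.1 z.2.2) (g z) = w} := by
    intro l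
    induction l with
    | nil => intro g hg w; exact hg w
    | cons t l ih =>
      intro g hg w
      simp only [List.foldl_cons]
      apply ih (fun z => stp L z.2.1 z.1 z.2.2 (g z) t)
      intro w'
      exact meas_bind g hg (fun u z => stp L z.2.1 z.1 z.2.2 u t = w') (fun u => hstep t u w')
  intro w
  have hinit : Measurable fun z : Sphere d × (L.Ω × (Fin T → E d)) => L.init z.2.1 :=
    L.init_measurable.comp (measurable_fst.comp measurable_snd)
  have hstop : Measurable fun z : Sphere d × (L.Ω × (Fin T → E d)) => L.stopFirst z.2.1 :=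
    L.stopFirst_measurable.comp (measurable_fst.comp measurable_snd)
  refine hfold (List.finRange T)
    (fun z => (L.init z.2.1, if L.stopFirst z.2.1 then some 0 else none)) ?_ w
  intro w'
  have e1 : {z : Sphere d × (L.Ω × (Fin T → E d)) |
      (L.init z.2.1, if L.stopFirst z.2.1 = true then some 0 else none) = w'}
      = {z | L.init z.2.1 = w'.1} ∩ (({z | L.stopFirst z.2.1 = true} ∩ {_z | some 0 = w'.2}) ∪
        ({z | L.stopFirst z.2.1 = false} ∩ {_z | none = w'.2})) := by
    ext z
    simp only [Set.mem_setOf_eq, Set.mem_inter_iff, Set.mem_union]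
    rcases w' with ⟨a, b⟩
    cases hb : L.stopFirst z.2.1 <;> simp [Prod.ext_iff]
  rw [e1]
  refine MeasurableSet.inter (hinit (measurableSet_singleton _)) (MeasurableSet.union ?_ ?_)
  · exact (hstop (measurableSet_singleton _)).inter (MeasurableSet.const _)
  · exact (hstop (measurableSet_singleton _)).inter (MeasurableSet.const _)

theorem event_meas {d T M : ℕ} (L : RLearner d T M) (ε : ℝ) :
    letI : MeasurableSpace L.Ω := L.mΩ
    MeasurableSet {z : Sphere d × (L.Ω × (Fin T → E d)) |
      (z.1 : E d) ∈ Metric.closedBall (L.output z.2.1 z.1 z.2.2) ε} := by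
  letI : MeasurableSpace L.Ω := L.mΩ
  haveI : Fintype L.St := L.fin
  have := meas_bind (fun z : Sphere d × (L.Ω × (Fin T → E d)) => L.run z.2.1 z.1 z.2.2)
    (run_meas L) (fun w z => (z.1 : E d) ∈ Metric.closedBall (L.out (w.2.getD T) z.2.1 w.1) ε)
    (by
      intro w
      have h1 : Measurable fun z : Sphere d × (L.Ω × (Fin T → E d)) => (z.1 : E d) :=
        measurable_subtype_coe.comp measurable_fst
      have h2 : Measurable fun z : Sphere d × (L.Ω × (Fin T → E d)) =>
          L.out (w.2.getD T) z.2.1 w.1 :=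
        (L.out_measurable _ _).comp (measurable_fst.comp measurable_snd)
      exact measurableSet_le (h1.dist h2) measurable_const)
  exact this

end P10FubiniAux

open P10FubiniAux

/-- for fixed seed and signal, the success event is measurable -/
theorem output_measSet {d T M : ℕ} (L : RLearner d T M) (ω : L.Ω) (ε : ℝ) :
    MeasurableSet {p : E d × (Fin T → E d) | p.1 ∈ Metric.closedBall (L.output ω p.1 p.2) ε} := by
  haveI : Fintype L.St := L.fin
  have hm : Measurable fun p : E d × (Fin T → E d) => (p.2, meas p.2 p.1) := by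
    refine measurable_snd.prodMk (measurable_pi_lambda _ fun t => ?_)
    exact Measurable.inner ((measurable_pi_apply t).comp measurable_snd) measurable_fst
  have := meas_bind (fun p : E d × (Fin T → E d) =>
      runY (Ltr L ω) T 0 (Linit L ω) p.2 (meas p.2 p.1))
    (fun w => hm (runY_meas (Ltr L ω) (Ltr_meas L ω) T 0 (Linit L ω) w))
    (fun w p => p.1 ∈ Metric.closedBall (Lout L ω w) ε)
    (fun w => measurableSet_le (measurable_fst.dist measurable_const) measurable_const)
  have e1 : {p : E d × (Fin T → E d) | p.1 ∈ Metric.closedBall (L.output ω p.1 p.2) ε}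
      = {p : E d × (Fin T → E d) | p.1 ∈ Metric.closedBall
        (Lout L ω (runY (Ltr L ω) T 0 (Linit L ω) p.2 (meas p.2 p.1))) ε} := by
    ext p
    simp only [Set.mem_setOf_eq]
    rw [output_eq]
  rw [e1]
  exact this

theorem success_le {d T M : ℕ} (hd : 1 ≤ d) (L : RLearner d T M) (ε : ℝ) (hε : 0 < ε) (β : ℝ≥0∞)
    (h : ∀ ω, ∫⁻ s, gm d T {xs | s ∈ Metric.closedBall (L.output ω s xs) ε} ∂(sph d) ≤ β) :
    ENNReal.ofReal (L.successProb ε) ≤ β := by
  letI : MeasurableSpace L.Ω := L.mΩ
  haveI := L.prob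
  haveI := sph_prob hd
  haveI : IsProbabilityMeasure (sphereUniform d) := by
    constructor
    have h1 : sph d Set.univ = 1 := measure_univ
    unfold sph at h1
    rw [Measure.map_apply measurable_subtype_coe MeasurableSet.univ, Set.preimage_univ] at h1
    exact h1
  set S' : Set (Sphere d × (L.Ω × (Fin T → E d))) :=
    {z | (z.1 : E d) ∈ Metric.closedBall (L.output z.2.1 z.1 z.2.2) ε} with hS'
  have hS'm : MeasurableSet S' := event_meas L ε
  have h1 : ENNReal.ofReal (L.successProb ε) ≤
      ((sphereUniform d).prod (L.ρ.prod (gm d T))) S' := by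
    unfold RLearner.successProb
    refine ENNReal.ofReal_toReal_le.trans (measure_mono ?_)
    intro z hz
    have ho : ‖L.output z.2.1 z.1 z.2.2‖ = 1 := L.out_unit _ _ _
    have hs : ‖(z.1 : E d)‖ = 1 := by
      have := z.1.2
      simpa using this
    exact mem_ball_of_arccos _ _ ho hs ε hε hz
  refine h1.trans ?_
  rw [Measure.prod_apply hS'm]
  have h2 : ∀ s : Sphere d, (L.ρ.prod (gm d T)) (Prod.mk s ⁻¹' S')
      = ∫⁻ ω, gm d T {xs | (s : E d) ∈ Metric.closedBall (L.output ω s xs) ε} ∂L.ρ := by
    intro s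
    rw [Measure.prod_apply (measurable_prodMk_left hS'm)]
    rfl
  simp_rw [h2]
  have hF : Measurable (Function.uncurry fun (s : Sphere d) (ω : L.Ω) =>
      gm d T {xs | (s : E d) ∈ Metric.closedBall (L.output ω s xs) ε}) := by
    have h3 : MeasurableSet ((fun q : (Sphere d × L.Ω) × (Fin T → E d) =>
        (q.1.1, (q.1.2, q.2))) ⁻¹' S') := by
      apply MeasurableSet.preimage hS'm
      exact (measurable_fst.comp measurable_fst).prodMk
        ((measurable_snd.comp measurable_fst).prodMk measurable_snd)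
    exact measurable_measure_prodMk_left h3
  rw [lintegral_lintegral_swap hF.aemeasurable]
  have h4 : ∀ ω, ∫⁻ s : Sphere d, gm d T {xs | (s : E d) ∈ Metric.closedBall (L.output ω s xs) ε}
      ∂(sphereUniform d) ≤ β := by
    intro ω
    refine le_trans (le_of_eq ?_) (h ω)
    unfold sph
    have h5 : Measurable fun s : E d =>
        gm d T {xs | s ∈ Metric.closedBall (L.output ω s xs) ε} :=
      measurable_measure_prodMk_left (output_measSet L ω ε)
    rw [lintegral_map h5 measurable_subtype_coe]
  calc ∫⁻ ω, ∫⁻ s : Sphere d, gm d T {xs | (s : E d) ∈ Metric.closedBall (L.output ω s xs) ε}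
      ∂(sphereUniform d) ∂L.ρ ≤ ∫⁻ _ω, β ∂L.ρ := lintegral_mono h4
    _ = β := by rw [lintegral_const, measure_univ, mul_one]

end Crest.Agent.R322
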