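import Crest.Agent.R322.Defs

/-!
# R322 piece P10a: a randomized learner with fixed seed is a machine (pure combinatorics)

State `L.St × Option (Fin (T+1))`.  `run_eq`: `L.run` (a `foldl` over `List.finRange T`) is `runY`; generalize over the number of
samples already read (e.g. `List.finRange` via `List.ofFn`/`List.finRange_succ`, or compare both sides with a recursion from the right).
-/

set_option autoImplicit false

namespace Crest.Agent.R322

open MeasureTheory ProbabilityTheory Crest.StreamLearn
open scoped ENNReal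

noncomputable section

variable {d T M : ℕ}

/-- states of the machine of a learner: memory state and stopping index -/
abbrev LState (L : RLearner d T M) : Type := L.St × Option (Fin (T + 1))

/-- one step of the machine of a learner with seed `ω` (identity after time `T`) -/
def Ltr (L : RLearner d T M) (ω : L.Ω) (t : ℕ) (v : LState L) (x : E d) (y : ℝ) : LState L :=
  if h : t < T then
    if v.2.isSome then v
    else if (L.trans ⟨t, h⟩ ω v.1 x y).2 then
      ((L.trans ⟨t, h⟩ ω v.1 x y).1, some ⟨t + 1, Nat.succ_lt_succ h⟩)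
    else ((L.trans ⟨t, h⟩ ω v.1 x y).1, none)
  else v

/-- initial state -/
def Linit (L : RLearner d T M) (ω : L.Ω) : LState L :=
  (L.init ω, if L.stopFirst ω then some 0 else none)

/-- output of a state -/
def Lout (L : RLearner d T M) (ω : L.Ω) (v : LState L) : E d :=
  L.out ((v.2.map Fin.val).getD T) ω v.1

/-- forget the bound on the stopping index -/
def Lemb (L : RLearner d T M) (v : LState L) : L.St × Option ℕ := (v.1, v.2.map Fin.val)

/-- one step of `RLearner.run` -/
def Lrunstep (L : RLearner d T M) (ω : L.Ω) (s : E d) (xs : Fin T → E d)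
    (st : L.St × Option ℕ) (t : Fin T) : L.St × Option ℕ :=
  if st.2.isSome then st else
      if (L.trans t ω st.1 (xs t) (inner ℝ (xs t) s)).2
      then ((L.trans t ω st.1 (xs t) (inner ℝ (xs t) s)).1, some (t.val + 1))
      else ((L.trans t ω st.1 (xs t) (inner ℝ (xs t) s)).1, none)

theorem Lrunstep_emb (L : RLearner d T M) (ω : L.Ω) (s : E d) (xs : Fin T → E d)
    (v : LState L) (t : ℕ) (ht : t < T) :
    Lrunstep L ω s xs (Lemb L v) ⟨t, ht⟩ =
      Lemb L (Ltr L ω t v (xs ⟨t, ht⟩) (inner ℝ (xs ⟨t, ht⟩) s)) := by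
  obtain ⟨q, o⟩ := v
  unfold Ltr
  rw [dif_pos ht]
  cases o with
  | some i => simp [Lrunstep, Lemb]
  | none =>
    simp only [Lrunstep, Lemb, Option.map_none, Option.isSome_none, Bool.false_eq_true, if_false]
    split_ifs <;> simp

theorem foldl_runY (L : RLearner d T M) (ω : L.Ω) (s : E d) (xs : Fin T → E d) :
    ∀ (n t : ℕ) (h : t + n ≤ T) (v : LState L),
      (List.finRange n).foldl
        (fun st i => Lrunstep L ω s xs st ⟨t + i.val, by have := i.isLt; omega⟩) (Lemb L v) =
      Lemb L (runY (Ltr L ω) n t v (fun i => xs ⟨t + i.val, by have := i.isLt; omega⟩)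
        (fun i => inner ℝ (xs ⟨t + i.val, by have := i.isLt; omega⟩) s)) := by
  intro n
  induction n with
  | zero =>
    intro t h v
    simp [runY]
  | succ n ih =>
    intro t h v
    rw [List.finRange_succ, List.foldl_cons, List.foldl_map]
    have h1 := ih (t + 1) (by omega)
      (Ltr L ω t v (xs ⟨t, by omega⟩) (inner ℝ (xs ⟨t, by omega⟩) s))
    rw [← Lrunstep_emb L ω s xs v t (by omega)] at h1
    have h2 : ∀ i : Fin n, (⟨t + (i.succ : Fin (n + 1)).val, by
        have := i.succ.isLt; omega⟩ : Fin T) = ⟨t + 1 + i.val, by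
        have := i.isLt; omega⟩ := by
      intro i
      ext
      simp only [Fin.val_succ]
      omega
    simp only [h2, Fin.val_zero, add_zero]
    rw [h1]
    simp only [runY, h2, Fin.val_zero, add_zero]

theorem output_eq (L : RLearner d T M) (ω : L.Ω) (s : E d) (xs : Fin T → E d) :
    L.output ω s xs = Lout L ω (runY (Ltr L ω) T 0 (Linit L ω) xs (meas xs s)) := by
  have h0 : Lemb L (Linit L ω) = (L.init ω, if L.stopFirst ω then some 0 else none) := by
    unfold Lemb Linit
    split_ifs <;> simp
  have h1 := foldl_runY L ω s xs T 0 (by omega) (Linit L ω)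
  have h2 : L.run ω s xs = Lemb L (runY (Ltr L ω) T 0 (Linit L ω) xs (meas xs s)) := by
    have h3 : ∀ i : Fin T, (⟨0 + i.val, by have := i.isLt; omega⟩ : Fin T) = i := by
      intro i
      ext
      simp
    simp only [h3] at h1
    rw [h0] at h1
    exact h1
  unfold RLearner.output Lout
  rw [h2]
  rfl

theorem Ltr_id (L : RLearner d T M) (ω : L.Ω) (t : ℕ) (ht : T ≤ t) (v : LState L) (x : E d) (y : ℝ) :
    Ltr L ω t v x y = v := by
  unfold Ltr
  rw [dif_neg (not_lt.2 ht)]

theorem trans_meas (L : RLearner d T M) (ω : L.Ω) (t : Fin T) (q : L.St) (A : Set (L.St × Bool)) :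
    MeasurableSet {p : E d × ℝ | L.trans t ω q p.1 p.2 ∈ A} := by
  letI := L.mΩ
  letI := L.fin
  obtain ⟨h1, h2⟩ := L.trans_measurable t q
  have hω : Measurable (fun p : E d × ℝ => (ω, p)) := measurable_prodMk_left
  have h1' : ∀ q' : L.St, MeasurableSet {p : E d × ℝ | (L.trans t ω q p.1 p.2).1 = q'} := by
    intro q'
    have := h1 (t := {q'}) trivial
    exact hω this
  have h2' : ∀ b : Bool, MeasurableSet {p : E d × ℝ | (L.trans t ω q p.1 p.2).2 = b} := by
    intro b
    have := h2 (t := {b}) (measurableSet_singleton b)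
    exact hω this
  have h3 : {p : E d × ℝ | L.trans t ω q p.1 p.2 ∈ A} =
      ⋃ a : A, ({p : E d × ℝ | (L.trans t ω q p.1 p.2).1 = a.1.1} ∩
        {p : E d × ℝ | (L.trans t ω q p.1 p.2).2 = a.1.2}) := by
    ext p
    simp only [Set.mem_ofPred_eq, Set.mem_iUnion, Set.mem_inter_iff]
    constructor
    · intro h
      exact ⟨⟨_, h⟩, rfl, rfl⟩
    · rintro ⟨⟨a, ha⟩, h4, h5⟩
      have : L.trans t ω q p.1 p.2 = a := Prod.ext h4 h5
      rw [this]
      exact ha
  rw [h3]
  haveI : Countable L.St := Finite.to_countable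
  exact MeasurableSet.iUnion fun a => (h1' _).inter (h2' _)

theorem Ltr_meas (L : RLearner d T M) (ω : L.Ω) (t : ℕ) (v v' : LState L) :
    MeasurableSet {p : E d × ℝ | Ltr L ω t v p.1 p.2 = v'} := by
  by_cases ht : t < T
  · by_cases hv : v.2.isSome
    · have : {p : E d × ℝ | Ltr L ω t v p.1 p.2 = v'} = {_p : E d × ℝ | v = v'} := by
        ext p
        simp only [Set.mem_ofPred_eq, Ltr, dif_pos ht, if_pos hv]
      rw [this]
      exact MeasurableSet.const _
    · have : {p : E d × ℝ | Ltr L ω t v p.1 p.2 = v'} =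
          {p : E d × ℝ | L.trans ⟨t, ht⟩ ω v.1 p.1 p.2 ∈ {a : L.St × Bool |
            (if a.2 then ((a.1, some ⟨t + 1, Nat.succ_lt_succ ht⟩) : LState L)
              else (a.1, none)) = v'}} := by
        ext p
        simp only [Set.mem_ofPred_eq, Ltr, dif_pos ht, if_neg hv]
      rw [this]
      exact trans_meas L ω _ _ _
  · have : {p : E d × ℝ | Ltr L ω t v p.1 p.2 = v'} = {_p : E d × ℝ | v = v'} := by
      ext p
      simp only [Set.mem_ofPred_eq, Ltr, dif_neg ht]
    rw [this]
    exact MeasurableSet.const _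

theorem LState_card (L : RLearner d T M) :
    letI := L.fin; Fintype.card (LState L) ≤ 2 ^ M * (T + 2) := by
  letI := L.fin
  show Fintype.card (L.St × Option (Fin (T + 1))) ≤ 2 ^ M * (T + 2)
  rw [Fintype.card_prod, Fintype.card_option, Fintype.card_fin]
  exact Nat.mul_le_mul_right _ L.card_le

end

end Crest.Agent.R322
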