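import Crest.Agent.R322.Defs

/-!
# R322 piece P2: decomposition into extremal balls

Iterate: `μ_n = μ.restrict (remaining set)`; if `μ_n univ > δ μ univ` let
`S = sup_{w, 0<r≤R} μ_n (closedBall w r) / r^g` (positive, `≥ μ_n univ / R^g`; finite because
`μ_n (closedBall w r) ≤ D |μ| B r^(d-1)` and `g ≤ d-1`), choose `(w, r)` with ratio `≥ S/2`, take
`A_n = remaining ∩ closedBall w r`.  Then `Nice` holds with `(w, r)`, `μ A_n ≥ (S/2) r^g ≥ (δ/2) (r/R)^g |μ|`, and `r` (hence the
mass) is bounded below by a positive constant since `D |μ| B r^(d-1-g) ≥ S/2`, so the procedure stops.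
-/

set_option autoImplicit false

namespace Crest.Agent.R322

open MeasureTheory ProbabilityTheory Crest.StreamLearn
open scoped ENNReal

theorem genie_step {d g : ℕ} (hg : g < d - 1) (σ : Measure (E d)) (B : ℝ≥0∞) (hB : B ≠ ∞)
    (hσ : ∀ (w : E d) (r : ℝ), 0 < r → r ≤ 1 →
      σ (Metric.closedBall w r) ≤ B * ENNReal.ofReal r ^ (d - 1))
    (μ : Measure (E d)) [IsFiniteMeasure μ] (hM : μ Set.univ ≠ 0)
    (z : E d) (R : ℝ) (hR : 0 < R) (hR1 : R ≤ 1)
    (hsupp : μ (Metric.closedBall z R)ᶜ = 0)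
    (D : ℝ≥0∞) (hD : D ≠ ∞) (hμ : μ ≤ (D * μ Set.univ) • σ) (δ : ℝ≥0∞) (hδ : 0 < δ) :
    ∃ m₀ : ℝ≥0∞, m₀ ≠ 0 ∧ ∀ C : Set (E d), MeasurableSet C → δ * μ Set.univ < μ C →
      ∃ (w : E d) (r : ℝ), r ≤ R ∧ Nice g (μ.restrict (C ∩ Metric.closedBall w r)) w r ∧
        δ / 2 * ENNReal.ofReal (r / R) ^ g * μ Set.univ ≤ μ (C ∩ Metric.closedBall w r) ∧
        m₀ ≤ μ (C ∩ Metric.closedBall w r) := by
  set M := μ Set.univ with hMdef
  have hMt : M ≠ ∞ := measure_ne_top μ _
  set K := D * B with hK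
  have hKt : K ≠ ∞ := ENNReal.mul_ne_top hD hB
  have hδ2 : δ / 2 ≠ 0 := by
    simp [ENNReal.div_eq_zero_iff, hδ.ne']
  set c := (δ / 2) / K with hc
  have hc0 : c ≠ 0 := by
    rw [hc]
    simp only [ne_eq, ENNReal.div_eq_zero_iff, not_or]
    exact ⟨by simpa [ENNReal.div_eq_zero_iff] using hδ.ne', hKt⟩
  -- the upper bound on balls
  have hball : ∀ (w : E d) (r : ℝ), 0 < r → r ≤ 1 →
      μ (Metric.closedBall w r) ≤ K * M * ENNReal.ofReal r ^ (d - 1) := by
    intro w r hr hr1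
    calc μ (Metric.closedBall w r) ≤ ((D * M) • σ) (Metric.closedBall w r) := hμ _
      _ = (D * M) * σ (Metric.closedBall w r) := by
          rw [Measure.smul_apply, smul_eq_mul]
      _ ≤ (D * M) * (B * ENNReal.ofReal r ^ (d - 1)) := by gcongr; exact hσ w r hr hr1
      _ = K * M * ENNReal.ofReal r ^ (d - 1) := by rw [hK]; ring
  refine ⟨δ / 2 * c ^ g * M, ?_, ?_⟩
  · exact mul_ne_zero (mul_ne_zero hδ2 (pow_ne_zero _ hc0)) hM
  intro C hC hCδ
  set S : ℝ≥0∞ := ⨆ (w : E d) (r : ℝ) (_ : 0 < r ∧ r ≤ R),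
    μ (C ∩ Metric.closedBall w r) / ENNReal.ofReal r ^ g with hS
  have hpos : ∀ r : ℝ, 0 < r → ENNReal.ofReal r ^ g ≠ 0 := fun r hr =>
    pow_ne_zero _ (by simpa using hr)
  have hfin : ∀ r : ℝ, ENNReal.ofReal r ^ g ≠ ∞ := fun r =>
    ENNReal.pow_ne_top ENNReal.ofReal_ne_top
  have hle1 : ∀ r : ℝ, r ≤ R → ENNReal.ofReal r ≤ 1 := fun r hr => by
    rw [← ENNReal.ofReal_one]
    exact ENNReal.ofReal_le_ofReal (hr.trans hR1)
  have hSle : S ≤ K * M := by
    refine iSup_le fun w => iSup_le fun r => iSup_le fun hr => ?_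
    refine ENNReal.div_le_of_le_mul ?_
    calc μ (C ∩ Metric.closedBall w r) ≤ μ (Metric.closedBall w r) :=
          measure_mono Set.inter_subset_right
      _ ≤ K * M * ENNReal.ofReal r ^ (d - 1) := hball w r hr.1 (hr.2.trans hR1)
      _ ≤ K * M * ENNReal.ofReal r ^ g := by
          exact mul_le_mul_right (pow_le_pow_right_of_le_one' (hle1 r hr.2) hg.le) _
  have hSt : S ≠ ∞ := (lt_of_le_of_lt hSle (ENNReal.mul_lt_top hKt.lt_top hMt.lt_top)).ne
  have hle : ∀ (w : E d) (r : ℝ), 0 < r → r ≤ R →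
      μ (C ∩ Metric.closedBall w r) ≤ S * ENNReal.ofReal r ^ g := by
    intro w r hr hrR
    have h1 : μ (C ∩ Metric.closedBall w r) / ENNReal.ofReal r ^ g ≤ S :=
      le_iSup_of_le w (le_iSup_of_le r (le_iSup_of_le ⟨hr, hrR⟩ le_rfl))
    exact (ENNReal.div_le_iff (hpos r hr) (hfin r)).1 h1
  have hCz : μ (C ∩ Metric.closedBall z R) = μ C := by
    apply le_antisymm (measure_mono Set.inter_subset_left)
    calc μ C ≤ μ (C ∩ Metric.closedBall z R) + μ (Metric.closedBall z R)ᶜ := by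
          refine (measure_mono ?_).trans (measure_union_le _ _)
          intro x hx
          by_cases h : x ∈ Metric.closedBall z R
          · exact Or.inl ⟨hx, h⟩
          · exact Or.inr h
      _ = _ := by rw [hsupp, add_zero]
  have hSge : δ * M ≤ S * ENNReal.ofReal R ^ g := by
    have := hle z R hR le_rfl
    rw [hCz] at this
    exact hCδ.le.trans this
  have hS0 : S ≠ 0 := by
    intro h
    rw [h, zero_mul] at hSge
    have : δ * M ≠ 0 := mul_ne_zero hδ.ne' hM
    exact this (le_antisymm hSge zero_le)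
  have hlt : S / 2 < S := ENNReal.half_lt_self hS0 hSt
  obtain ⟨w, hw⟩ := lt_iSup_iff.1 (lt_of_lt_of_eq hlt hS)
  obtain ⟨r, hr⟩ := lt_iSup_iff.1 hw
  obtain ⟨⟨hr0, hrR⟩, hr'⟩ := lt_iSup_iff.1 hr
  have hA : S / 2 * ENNReal.ofReal r ^ g ≤ μ (C ∩ Metric.closedBall w r) :=
    ENNReal.mul_le_of_le_div hr'.le
  have hlow : δ / 2 * ENNReal.ofReal (r / R) ^ g * M ≤ μ (C ∩ Metric.closedBall w r) := by
    refine le_trans ?_ hA
    have h1 : ENNReal.ofReal r ^ g = ENNReal.ofReal (r / R) ^ g * ENNReal.ofReal R ^ g := by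
      rw [← mul_pow, ← ENNReal.ofReal_mul (by positivity), div_mul_cancel₀ _ hR.ne']
    rw [h1]
    calc δ / 2 * ENNReal.ofReal (r / R) ^ g * M = (δ * M) / 2 * ENNReal.ofReal (r / R) ^ g := by
          rw [ENNReal.div_eq_inv_mul, ENNReal.div_eq_inv_mul]; ring
      _ ≤ (S * ENNReal.ofReal R ^ g) / 2 * ENNReal.ofReal (r / R) ^ g := by gcongr
      _ = S / 2 * (ENNReal.ofReal (r / R) ^ g * ENNReal.ofReal R ^ g) := by
          rw [ENNReal.div_eq_inv_mul, ENNReal.div_eq_inv_mul]; ring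
  have hcr : c ≤ ENNReal.ofReal (r / R) := by
    have h2 : ENNReal.ofReal r ≤ ENNReal.ofReal (r / R) := by
      apply ENNReal.ofReal_le_ofReal
      rw [le_div_iff₀ hR]
      nlinarith
    refine le_trans ?_ h2
    rw [hc]
    apply ENNReal.div_le_of_le_mul'
    have h3 : δ / 2 * ENNReal.ofReal r ^ g * M ≤
        K * ENNReal.ofReal r ^ (d - 1) * M := by
      calc δ / 2 * ENNReal.ofReal r ^ g * M ≤ δ / 2 * ENNReal.ofReal (r / R) ^ g * M := by gcongr
        _ ≤ μ (C ∩ Metric.closedBall w r) := hlow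
        _ ≤ μ (Metric.closedBall w r) := measure_mono Set.inter_subset_right
        _ ≤ K * M * ENNReal.ofReal r ^ (d - 1) := hball w r hr0 (hrR.trans hR1)
        _ = K * ENNReal.ofReal r ^ (d - 1) * M := by ring
    have h4 : δ / 2 * ENNReal.ofReal r ^ g ≤ K * ENNReal.ofReal r ^ (d - 1) :=
      (ENNReal.mul_le_mul_iff_left hM hMt).1 h3
    have h5 : ENNReal.ofReal r ^ (d - 1) ≤ ENNReal.ofReal r * ENNReal.ofReal r ^ g := by
      rw [← pow_succ']
      exact pow_le_pow_right_of_le_one' (hle1 r hrR) hg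
    have h6 : δ / 2 * ENNReal.ofReal r ^ g ≤ K * ENNReal.ofReal r * ENNReal.ofReal r ^ g := by
      calc δ / 2 * ENNReal.ofReal r ^ g ≤ K * ENNReal.ofReal r ^ (d - 1) := h4
        _ ≤ K * (ENNReal.ofReal r * ENNReal.ofReal r ^ g) := by gcongr
        _ = _ := by ring
    exact (ENNReal.mul_le_mul_iff_left (hpos r hr0) (hfin r)).1 h6
  refine ⟨w, r, hrR, ⟨hr0, ?_, ?_⟩, hlow, ?_⟩
  · rw [Measure.restrict_apply (Metric.isClosed_closedBall.measurableSet.compl)]
    have : (Metric.closedBall w r)ᶜ ∩ (C ∩ Metric.closedBall w r) = ∅ := by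
      ext x
      simp only [Set.mem_inter_iff, Set.mem_compl_iff, Set.mem_empty_iff_false, iff_false]
      tauto
    rw [this, measure_empty]
  · intro w' τ hτ hτ1
    rw [Measure.restrict_apply Metric.isClosed_closedBall.measurableSet, Measure.restrict_apply_univ]
    calc μ (Metric.closedBall w' (τ * r) ∩ (C ∩ Metric.closedBall w r))
        ≤ μ (C ∩ Metric.closedBall w' (τ * r)) := by
          apply measure_mono
          rintro x ⟨hx1, hx2, _⟩
          exact ⟨hx2, hx1⟩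
      _ ≤ S * ENNReal.ofReal (τ * r) ^ g := hle _ _ (by positivity) (by nlinarith)
      _ = 2 * ENNReal.ofReal τ ^ g * (S / 2 * ENNReal.ofReal r ^ g) := by
          rw [ENNReal.ofReal_mul hτ.le, mul_pow]
          have : S = 2 * (S / 2) := by
            rw [ENNReal.mul_div_cancel two_ne_zero ENNReal.ofNat_ne_top]
          nth_rewrite 1 [this]
          ring
      _ ≤ 2 * ENNReal.ofReal τ ^ g * μ (C ∩ Metric.closedBall w r) := by gcongr
  · refine le_trans ?_ hlow
    gcongr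

theorem genie {d g : ℕ} (hg : g < d - 1) (σ : Measure (E d)) (B : ℝ≥0∞) (hB : B ≠ ∞)
    (hσ : ∀ (w : E d) (r : ℝ), 0 < r → r ≤ 1 →
      σ (Metric.closedBall w r) ≤ B * ENNReal.ofReal r ^ (d - 1))
    (μ : Measure (E d)) [IsFiniteMeasure μ] (z : E d) (R : ℝ) (hR : 0 < R) (hR1 : R ≤ 1)
    (hsupp : μ (Metric.closedBall z R)ᶜ = 0)
    (D : ℝ≥0∞) (hD : D ≠ ∞) (hμ : μ ≤ (D * μ Set.univ) • σ) (δ : ℝ≥0∞) (hδ : 0 < δ) (hδ' : δ ≠ ∞) :
    ∃ (n : ℕ) (A : Fin n → Set (E d)) (zz : Fin n → E d) (rr : Fin n → ℝ),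
      (∀ i, MeasurableSet (A i)) ∧ Pairwise (Function.onFun Disjoint A) ∧
      (∀ i, rr i ≤ R) ∧ (∀ i, Nice g (μ.restrict (A i)) (zz i) (rr i)) ∧
      (∀ i, δ / 2 * ENNReal.ofReal (rr i / R) ^ g * μ Set.univ ≤ μ (A i)) ∧
      μ (⋃ i, A i)ᶜ ≤ δ * μ Set.univ := by
  by_cases hM : μ Set.univ = 0
  · refine ⟨0, fun i => i.elim0, fun i => i.elim0, fun i => i.elim0, fun i => i.elim0,
      fun i => i.elim0, fun i => i.elim0, fun i => i.elim0, fun i => i.elim0, ?_⟩
    have : μ (⋃ i : Fin 0, (i.elim0 : Set (E d)))ᶜ ≤ μ Set.univ := measure_mono (Set.subset_univ _)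
    rw [hM] at this ⊢
    simpa using this
  obtain ⟨m₀, hm₀, hstep⟩ := genie_step hg σ B hB hσ μ hM z R hR hR1 hsupp D hD hμ δ hδ
  have key : ∀ N : ℕ, ∀ C : Set (E d), MeasurableSet C → μ C ≤ N * m₀ →
      ∃ (n : ℕ) (A : Fin n → Set (E d)) (zz : Fin n → E d) (rr : Fin n → ℝ),
      (∀ i, MeasurableSet (A i)) ∧ (∀ i, A i ⊆ C) ∧ Pairwise (Function.onFun Disjoint A) ∧
      (∀ i, rr i ≤ R) ∧ (∀ i, Nice g (μ.restrict (A i)) (zz i) (rr i)) ∧
      (∀ i, δ / 2 * ENNReal.ofReal (rr i / R) ^ g * μ Set.univ ≤ μ (A i)) ∧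
      μ (C \ ⋃ i, A i) ≤ δ * μ Set.univ := by
    have base : ∀ C : Set (E d), μ C ≤ δ * μ Set.univ →
        ∃ (n : ℕ) (A : Fin n → Set (E d)) (zz : Fin n → E d) (rr : Fin n → ℝ),
        (∀ i, MeasurableSet (A i)) ∧ (∀ i, A i ⊆ C) ∧ Pairwise (Function.onFun Disjoint A) ∧
        (∀ i, rr i ≤ R) ∧ (∀ i, Nice g (μ.restrict (A i)) (zz i) (rr i)) ∧
        (∀ i, δ / 2 * ENNReal.ofReal (rr i / R) ^ g * μ Set.univ ≤ μ (A i)) ∧
        μ (C \ ⋃ i, A i) ≤ δ * μ Set.univ := by
      intro C hC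
      exact ⟨0, fun i => i.elim0, fun i => i.elim0, fun i => i.elim0, fun i => i.elim0,
        fun i => i.elim0, fun i => i.elim0, fun i => i.elim0, fun i => i.elim0,
        fun i => i.elim0, (measure_mono Set.sdiff_subset).trans hC⟩
    intro N
    induction N with
    | zero =>
      intro C _ hC0
      apply base
      have h0 : μ C = 0 := by simpa using hC0
      rw [h0]
      exact zero_le
    | succ N ih =>
      intro C hC hCN
      rcases le_or_gt (μ C) (δ * μ Set.univ) with h | h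
      · exact base C h
      obtain ⟨w, r, hrR, hnice, hlow, hm⟩ := hstep C hC h
      set A₀ := C ∩ Metric.closedBall w r with hA₀
      have hA₀m : MeasurableSet A₀ := hC.inter Metric.isClosed_closedBall.measurableSet
      have hdiff : μ (C \ A₀) ≤ N * m₀ := by
        rw [measure_sdiff Set.inter_subset_left hA₀m.nullMeasurableSet (measure_ne_top μ _)]
        rw [tsub_le_iff_right]
        calc μ C ≤ ((N + 1 : ℕ) : ℝ≥0∞) * m₀ := hCN
          _ = N * m₀ + m₀ := by push_cast; ring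
          _ ≤ N * m₀ + μ A₀ := by gcongr
      obtain ⟨n, A, zz, rr, h1, h2, h3, h4, h5, h6, h7⟩ := ih (C \ A₀) (hC.diff hA₀m) hdiff
      refine ⟨n + 1, Fin.cons A₀ A, Fin.cons w zz, Fin.cons r rr, ?_, ?_, ?_, ?_, ?_, ?_, ?_⟩
      · intro i
        refine Fin.cases ?_ (fun j => ?_) i
        · simpa using hA₀m
        · simpa using h1 j
      · intro i
        refine Fin.cases ?_ (fun j => ?_) i
        · rw [Fin.cons_zero]; exact Set.inter_subset_left
        · simpa using (h2 j).trans Set.sdiff_subset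
      · intro i j hij
        induction i using Fin.cases with
        | zero =>
          induction j using Fin.cases with
          | zero => exact absurd rfl hij
          | succ j =>
            simp only [Function.onFun, Fin.cons_zero, Fin.cons_succ]
            exact (Set.disjoint_sdiff_left.mono_left (h2 j)).symm
        | succ i =>
          induction j using Fin.cases with
          | zero =>
            simp only [Function.onFun, Fin.cons_zero, Fin.cons_succ]
            exact Set.disjoint_sdiff_left.mono_left (h2 i)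
          | succ j =>
            simp only [Function.onFun, Fin.cons_succ]
            exact h3 (fun h => hij (by rw [h]))
      · intro i
        refine Fin.cases ?_ (fun j => ?_) i
        · simpa using hrR
        · simpa using h4 j
      · intro i
        refine Fin.cases ?_ (fun j => ?_) i
        · simpa using hnice
        · simpa using h5 j
      · intro i
        refine Fin.cases ?_ (fun j => ?_) i
        · simpa using hlow
        · simpa using h6 j
      · refine (measure_mono ?_).trans h7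
        rintro x ⟨hx, hxU⟩
        simp only [Set.mem_iUnion, not_exists] at hxU
        refine ⟨⟨hx, ?_⟩, ?_⟩
        · simpa using hxU 0
        · simp only [Set.mem_iUnion, not_exists]
          intro j
          simpa using hxU j.succ
  obtain ⟨N, hN⟩ := ENNReal.exists_nat_mul_gt hm₀ (measure_ne_top μ Set.univ)
  obtain ⟨n, A, zz, rr, h1, h2, h3, h4, h5, h6, h7⟩ := key N Set.univ MeasurableSet.univ hN.le
  refine ⟨n, A, zz, rr, h1, h3, h4, h5, h6, ?_⟩
  rwa [Set.compl_eq_univ_sdiff]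

end Crest.Agent.R322
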