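import Crest.Agent.R322.Defs

/-!
# R322 piece P3a: nice measures do not concentrate near affine subspaces

`H = s₀ + W`.  For `0 < τ ≤ 1/2`: if `s ∈ closedBall z R` and `dW W (s - s₀) ≤ τR`, then with `h(s)` the projection of `s` to `H`
and `z_H` that of `z` (`‖h(s) - z_H‖ ≤ ‖s - z‖ ≤ R`): the `W`-ball of radius `τR` around `h(s)` is inside the `W`-ball of radius `2R`
around `z_H` and inside `{h : ‖s-h‖ ≤ 2τR}`.  Tonelli with the volume (Haar) measure on `W` (`Measure.addHaar_closedBall`):
`P(dist ≤ τR) · (τR)^κ vol(B₁) ≤ ∫_{h ∈ B(z_H, 2R)} P(closedBall h (2τR)) dh ≤ (2R)^κ vol(B₁) · 2 (2τ)^g`, `κ = finrank W ≤ k`;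
so `P(dist ≤ τR) ≤ 2^(1+k+g) τ^(g-k)`.  For `τ > 1/2` the right side is `≥ 1`.
-/

set_option autoImplicit false

namespace Crest.Agent.R322

open MeasureTheory ProbabilityTheory Crest.StreamLearn
open scoped ENNReal

namespace P3a_aux

theorem alg_cancel {p v t r : ℝ≥0∞} {κ g : ℕ} (hκ : κ ≤ g) (hv0 : v ≠ 0) (hv1 : v ≠ ∞)
    (ht0 : t ≠ 0) (ht1 : t ≠ ∞) (hr0 : r ≠ 0) (hr1 : r ≠ ∞)
    (h : p * ((t * r) ^ κ * v) ≤ 2 * (2 * t) ^ g * ((2 * r) ^ κ * v)) :
    p ≤ 2 ^ (1 + κ + g) * t ^ (g - κ) := by
  have h1 : p * ((t * r) ^ κ * v) ≤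
      (2 ^ (1 + κ + g) * t ^ (g - κ)) * ((t * r) ^ κ * v) := by
    refine h.trans (le_of_eq ?_)
    have h2 : t ^ g = t ^ (g - κ) * t ^ κ := by
      rw [← pow_add, Nat.sub_add_cancel hκ]
    rw [mul_pow, mul_pow, mul_pow, h2, pow_add, pow_add, pow_one]
    ring
  have h3 : (t * r) ^ κ * v ≠ 0 := by
    apply mul_ne_zero _ hv0
    exact pow_ne_zero _ (mul_ne_zero ht0 hr0)
  have h4 : (t * r) ^ κ * v ≠ ∞ :=
    ENNReal.mul_ne_top (ENNReal.pow_ne_top (ENNReal.mul_ne_top ht1 hr1)) hv1
  exact (ENNReal.mul_le_mul_iff_left h3 h4).1 h1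

end P3a_aux

theorem nc_slab {d g k : ℕ} (hgk : k ≤ g) (P : Measure (E d)) [IsProbabilityMeasure P]
    {z : E d} {R : ℝ} (hP : Nice g P z R) (W : Submodule ℝ (E d)) (hW : Module.finrank ℝ W ≤ k)
    (s₀ : E d) (τ : ℝ) (hτ : 0 < τ) (hτ1 : τ ≤ 1) :
    P {s | dW W (s - s₀) ≤ τ * R} ≤ 2 ^ (1 + k + g) * ENNReal.ofReal τ ^ (g - k) := by
  have hR := hP.pos
  rcases le_or_gt τ (1 / 2) with h2 | h2
  swap
  · -- `τ > 1/2`
    have h3 : (1 : ℝ≥0∞) ≤ 2 * ENNReal.ofReal τ := by
      have : (2 : ℝ≥0∞) * ENNReal.ofReal τ = ENNReal.ofReal (2 * τ) := by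
        rw [ENNReal.ofReal_mul (by norm_num)]; norm_num
      rw [this]
      exact ENNReal.one_le_ofReal.2 (by linarith)
    calc P {s | dW W (s - s₀) ≤ τ * R} ≤ 1 := prob_le_one
      _ ≤ (2 * ENNReal.ofReal τ) ^ (g - k) := one_le_pow_of_one_le' h3 _
      _ = 2 ^ (g - k) * ENNReal.ofReal τ ^ (g - k) := mul_pow _ _ _
      _ ≤ 2 ^ (1 + k + g) * ENNReal.ofReal τ ^ (g - k) := by
        gcongr
        · norm_num
        · omega
  set κ := Module.finrank ℝ W with hκ
  let π : E d →L[ℝ] W := W.orthogonalProjectionOnto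
  have hπ : ∀ x, ((π x : W) : E d) = W.starProjection x := fun x => rfl
  have hπn : ∀ x, ‖π x‖ ≤ ‖x‖ := fun x => W.norm_orthogonalProjectionOnto_apply_le x
  let μ : Measure W := Measure.addHaar
  set zW : W := π (z - s₀) with hzW
  let S : Set (W × E d) := {q | q.1 ∈ Metric.closedBall zW (2 * R) ∧
    ‖q.2 - (s₀ + (q.1 : E d))‖ ≤ 2 * τ * R}
  have hScl : IsClosed S := by
    apply IsClosed.inter
    · exact Metric.isClosed_closedBall.preimage continuous_fst
    · exact isClosed_le (continuous_snd.sub (continuous_const.add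
        (continuous_subtype_val.comp continuous_fst))).norm continuous_const
  have hS : MeasurableSet S := hScl.measurableSet
  -- the slab
  let A : Set (E d) := {s | dW W (s - s₀) ≤ τ * R} ∩ Metric.closedBall z R
  have hAm : MeasurableSet A := by
    apply IsClosed.measurableSet
    apply IsClosed.inter
    · apply isClosed_le _ continuous_const
      unfold dW
      fun_prop
    · exact Metric.isClosed_closedBall
  have hPA : P {s | dW W (s - s₀) ≤ τ * R} = P A := by
    apply le_antisymm _ (measure_mono Set.inter_subset_left)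
    calc P {s | dW W (s - s₀) ≤ τ * R} ≤ P (A ∪ (Metric.closedBall z R)ᶜ) := by
          apply measure_mono
          intro s hs
          by_cases h : s ∈ Metric.closedBall z R
          · exact Or.inl ⟨hs, h⟩
          · exact Or.inr h
      _ ≤ P A + P (Metric.closedBall z R)ᶜ := measure_union_le _ _
      _ = P A := by rw [hP.supp, add_zero]
  -- upper bound
  have hup : (μ.prod P) S ≤ 2 * (2 * ENNReal.ofReal τ) ^ g * μ (Metric.closedBall zW (2 * R)) := by
    rw [Measure.prod_apply hS]
    calc ∫⁻ w, P (Prod.mk w ⁻¹' S) ∂μ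
        ≤ ∫⁻ w, (Metric.closedBall zW (2 * R)).indicator
            (fun _ => 2 * (2 * ENNReal.ofReal τ) ^ g) w ∂μ := by
          apply lintegral_mono
          intro w
          by_cases hw : w ∈ Metric.closedBall zW (2 * R)
          · rw [Set.indicator_of_mem hw]
            have h5 : Prod.mk w ⁻¹' S ⊆ Metric.closedBall (s₀ + (w : E d)) ((2 * τ) * R) := by
              intro s hs
              rw [Metric.mem_closedBall, dist_eq_norm]
              exact hs.2
            calc P (Prod.mk w ⁻¹' S) ≤ P (Metric.closedBall (s₀ + (w : E d)) ((2 * τ) * R)) :=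
                  measure_mono h5
              _ ≤ 2 * ENNReal.ofReal (2 * τ) ^ g * P Set.univ :=
                  hP.nc _ _ (by linarith) (by linarith)
              _ = 2 * (2 * ENNReal.ofReal τ) ^ g := by
                  rw [measure_univ, mul_one, ENNReal.ofReal_mul (by norm_num)]
                  norm_num
          · rw [Set.indicator_of_notMem hw]
            have h5 : Prod.mk w ⁻¹' S = ∅ := by
              ext s
              simp only [Set.mem_preimage, Set.mem_empty_iff_false, iff_false]
              exact fun h => hw h.1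
            simp [h5]
      _ = 2 * (2 * ENNReal.ofReal τ) ^ g * μ (Metric.closedBall zW (2 * R)) := by
          rw [lintegral_indicator Metric.isClosed_closedBall.measurableSet, lintegral_const,
            Measure.restrict_apply_univ]
  -- lower bound
  have hlow : P A * μ (Metric.closedBall (0 : W) (τ * R)) ≤ (μ.prod P) S := by
    rw [Measure.prod_apply_symm hS]
    calc P A * μ (Metric.closedBall (0 : W) (τ * R))
        = ∫⁻ s, A.indicator (fun _ => μ (Metric.closedBall (0 : W) (τ * R))) s ∂P := by
          rw [lintegral_indicator hAm, lintegral_const, Measure.restrict_apply_univ, mul_comm]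
      _ ≤ ∫⁻ s, μ ((fun w => (w, s)) ⁻¹' S) ∂P := by
          apply lintegral_mono
          intro s
          by_cases hs : s ∈ A
          · rw [Set.indicator_of_mem hs]
            have h6 : Metric.closedBall (π (s - s₀)) (τ * R) ⊆ (fun w => (w, s)) ⁻¹' S := by
              intro w hw
              rw [Metric.mem_closedBall, dist_eq_norm] at hw
              have h7 : ‖π (s - s₀) - zW‖ ≤ R := by
                rw [hzW, ← map_sub]
                refine (hπn _).trans ?_
                have h8 := hs.2
                rw [Metric.mem_closedBall, dist_eq_norm] at h8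
                simpa using h8
              refine ⟨?_, ?_⟩
              · rw [Metric.mem_closedBall, dist_eq_norm]
                change ‖w - zW‖ ≤ 2 * R
                calc ‖w - zW‖ = ‖(w - π (s - s₀)) + (π (s - s₀) - zW)‖ := by
                      congr 1; abel
                  _ ≤ ‖w - π (s - s₀)‖ + ‖π (s - s₀) - zW‖ := norm_add_le _ _
                  _ ≤ τ * R + R := add_le_add hw h7
                  _ ≤ 2 * R := by nlinarith
              · change ‖s - (s₀ + (w : E d))‖ ≤ 2 * τ * R
                have h9 : ‖(s - s₀) - W.starProjection (s - s₀)‖ ≤ τ * R := hs.1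
                have h10 : ‖((π (s - s₀) : W) : E d) - (w : E d)‖ ≤ τ * R := by
                  rw [norm_sub_rev]
                  exact_mod_cast hw
                calc ‖s - (s₀ + (w : E d))‖
                    = ‖((s - s₀) - W.starProjection (s - s₀)) +
                      (((π (s - s₀) : W) : E d) - (w : E d))‖ := by
                      congr 1
                      rw [hπ]
                      abel
                  _ ≤ τ * R + τ * R := (norm_add_le _ _).trans (add_le_add h9 h10)
                  _ = 2 * τ * R := by ring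
            calc μ (Metric.closedBall (0 : W) (τ * R))
                = μ (Metric.closedBall (π (s - s₀)) (τ * R)) := by
                  rw [Measure.addHaar_closedBall μ _ (by positivity),
                    Measure.addHaar_closedBall μ _ (by positivity)]
              _ ≤ _ := measure_mono h6
          · rw [Set.indicator_of_notMem hs]
            exact bot_le
  -- combine
  have hcomb := hlow.trans hup
  rw [Measure.addHaar_closedBall μ _ (by positivity), Measure.addHaar_closedBall μ _ (by positivity),
    ENNReal.ofReal_pow (by positivity), ENNReal.ofReal_pow (by positivity),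
    ENNReal.ofReal_mul hτ.le, ENNReal.ofReal_mul (by norm_num : (0 : ℝ) ≤ 2)] at hcomb
  have h2' : ENNReal.ofReal 2 = 2 := by norm_num
  rw [h2'] at hcomb
  have hv0 : μ (Metric.ball (0 : W) 1) ≠ 0 := (Metric.measure_ball_pos μ 0 one_pos).ne'
  have hv1 : μ (Metric.ball (0 : W) 1) ≠ ∞ := measure_ball_lt_top.ne
  have hfin := P3a_aux.alg_cancel (hW.trans hgk) hv0 hv1
    (by simpa using hτ) ENNReal.ofReal_ne_top (by simpa using hR) ENNReal.ofReal_ne_top hcomb
  rw [hPA]
  refine hfin.trans ?_
  have ht1 : ENNReal.ofReal τ ≤ 1 := ENNReal.ofReal_le_one.2 hτ1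
  apply mul_le_mul' _ _
  · exact pow_le_pow_right' (by norm_num) (by omega)
  · exact pow_le_pow_right_of_le_one' ht1 (by omega)

end Crest.Agent.R322
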