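import Crest.Agent.R322.P3aSlab

/-!
# R322 piece P3b: negative moments of the distance to an affine subspace

`r(s) = dW W (s - s₀) / R`: `r^{-2m} ≤ 1 + Σ_{i≥0} 2^{2m(i+1)} 1[r ≤ 2^{-i}]` (if `2^{-i-1} < r ≤ 2^{-i}` use the `i`-th term; if `r = 0` the
sum is `∞`; if `r > 1` use `1`).  Integrate with `nc_slab`: `Σ_i 2^{2m(i+1)} 2^{1+k+g} 2^{-i(g-k)} ≤ 2^{2m+1+k+g} Σ_i 2^{-i(g-k-2m)} ≤ 2^{2m+2+k+g}`.
-/

set_option autoImplicit false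

namespace Crest.Agent.R322

open MeasureTheory ProbabilityTheory Crest.StreamLearn
open scoped ENNReal

theorem nc_int {d g m k : ℕ} (hm : 1 ≤ m) (hgk : k + 4 * m ≤ g) (P : Measure (E d)) [IsProbabilityMeasure P]
    {z : E d} {R : ℝ} (hP : Nice g P z R) (W : Submodule ℝ (E d)) (hW : Module.finrank ℝ W ≤ k)
    (s₀ : E d) :
    ∫⁻ s, (ENNReal.ofReal (dW W (s - s₀) / R))⁻¹ ^ (2 * m) ∂P ≤ 2 ^ (2 * m + 3 + k + g) := by
  sorry

end Crest.Agent.R322
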