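import Crest.Agent.R322.Defs

/-!
# R322 piece P4: Gaussian small ball, one more vector

`e = (u - P_W u)/‖u - P_W u‖` is orthogonal to `W`; `x ↦ (⟪x,e⟫, x - ⟪x,e⟫ e)` has independent components under the standard Gaussian, the
first one `N(0,1)`; given the second component `⟪x,u⟫ = a + dist * ⟪x,e⟫`, and `P(|a + dist Z| < η) ≤ 2η/(√(2π) dist) ≤ η/dist`.
(`dist = 0`: right side is `∞` unless the probability is `0`, when the left side is `0` too.)
-/

set_option autoImplicit false

namespace Crest.Agent.R322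

open MeasureTheory ProbabilityTheory Crest.StreamLearn
open scoped ENNReal

namespace P4aux

/-- the standard Gaussian law of the line has density at most `1/2` -/
lemma gauss_le (s : Set ℝ) : gaussianReal 0 1 s ≤ ENNReal.ofReal (1 / 2) * volume s := by
  rw [gaussianReal_apply 0 one_ne_zero s]
  have h1 : ∀ x : ℝ, gaussianPDF 0 1 x ≤ ENNReal.ofReal (1 / 2) := by
    intro x
    unfold gaussianPDF gaussianPDFReal
    apply ENNReal.ofReal_le_ofReal
    have h2 : Real.exp (-(x - 0) ^ 2 / (2 * ((1 : NNReal) : ℝ))) ≤ 1 := by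
      rw [Real.exp_le_one_iff]
      apply div_nonpos_of_nonpos_of_nonneg
      · have := sq_nonneg (x - 0); linarith
      · norm_num
    have h3 : (2 : ℝ) ≤ Real.sqrt (2 * Real.pi * ((1 : NNReal) : ℝ)) := by
      apply Real.le_sqrt_of_sq_le
      have := Real.pi_gt_three
      norm_num
      linarith
    have h4 : (Real.sqrt (2 * Real.pi * ((1 : NNReal) : ℝ)))⁻¹ ≤ 1 / 2 := by
      rw [one_div]
      exact inv_anti₀ (by norm_num) h3
    have h5 : 0 ≤ (Real.sqrt (2 * Real.pi * ((1 : NNReal) : ℝ)))⁻¹ := by positivity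
    calc _ ≤ (1 / 2 : ℝ) * 1 := mul_le_mul h4 h2 (Real.exp_pos _).le (by norm_num)
      _ = 1 / 2 := by ring
  calc ∫⁻ x in s, gaussianPDF 0 1 x ≤ ∫⁻ _ in s, ENNReal.ofReal (1 / 2) :=
        lintegral_mono (fun x => h1 x)
    _ = ENNReal.ofReal (1 / 2) * volume s := setLIntegral_const _ _

lemma gauss_slab (a D η : ℝ) (hD : 0 < D) (hη : 0 < η) :
    gaussianReal 0 1 {z | |a + z * D| < η} ≤ ENNReal.ofReal η * (ENNReal.ofReal D)⁻¹ := by
  have h1 : {z : ℝ | |a + z * D| < η} = Metric.ball (-a / D) (η / D) := by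
    ext z
    rw [Set.mem_ofPred_eq, Metric.mem_ball, Real.dist_eq, lt_div_iff₀ hD]
    have : z - -a / D = (a + z * D) / D := by
      field_simp
      ring
    rw [this, abs_div, abs_of_pos hD, div_mul_cancel₀ _ hD.ne']
  rw [h1]
  refine (gauss_le _).trans ?_
  rw [Real.volume_ball, ← ENNReal.ofReal_mul (by norm_num), ← ENNReal.ofReal_inv_of_pos hD,
    ← ENNReal.ofReal_mul hη.le]
  apply ENNReal.ofReal_le_ofReal
  rw [div_eq_mul_inv]
  apply le_of_eq
  ring

/-- resampling the component along the unit vector `e` -/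
noncomputable def Phi {d : ℕ} (e : E d) (p : ℝ × E d) : E d :=
  p.2 - (inner ℝ p.2 e : ℝ) • e + p.1 • e

lemma inner_Phi {d : ℕ} (e x v : E d) (z : ℝ) :
    (inner ℝ (Phi e (z, x)) v : ℝ) =
      (inner ℝ x v : ℝ) - (inner ℝ x e : ℝ) * (inner ℝ e v : ℝ) + z * (inner ℝ e v : ℝ) := by
  unfold Phi
  rw [inner_add_left, inner_sub_left, inner_smul_left, inner_smul_left]
  simp

lemma measurable_Phi {d : ℕ} (e : E d) : Measurable (Phi e) := by
  unfold Phi
  fun_prop

lemma map_Phi {d : ℕ} (e : E d) (he : ‖e‖ = 1) :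
    ((gaussianReal 0 1).prod (stdGaussian (E d))).map (Phi e) = stdGaussian (E d) := by
  have hp : IsProbabilityMeasure
      (((gaussianReal 0 1).prod (stdGaussian (E d))).map (Phi e)) :=
    Measure.isProbabilityMeasure_map (measurable_Phi e).aemeasurable
  apply Measure.ext_of_charFun
  ext t
  rw [charFun_apply, integral_map (measurable_Phi e).aemeasurable (by fun_prop)]
  have h1 : ∀ p : ℝ × E d, Complex.exp ((inner ℝ (Phi e p) t : ℝ) * Complex.I) =
      Complex.exp ((inner ℝ p.1 (inner ℝ e t : ℝ) : ℝ) * Complex.I) *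
      Complex.exp ((inner ℝ p.2 (t - (inner ℝ e t : ℝ) • e) : ℝ) * Complex.I) := by
    intro p
    rw [← Complex.exp_add]
    congr 1
    unfold Phi
    rw [inner_add_left, inner_sub_left, inner_smul_left, inner_smul_left, inner_sub_right,
      inner_smul_right, real_inner_eq_re_inner]
    simp only [conj_trivial, RCLike.re_to_real, RCLike.inner_apply]
    push_cast
    ring
  simp_rw [h1]
  rw [integral_prod_mul (fun x : ℝ => Complex.exp ((inner ℝ x (inner ℝ e t : ℝ) : ℝ) * Complex.I))
    (fun x : E d => Complex.exp ((inner ℝ x (t - (inner ℝ e t : ℝ) • e) : ℝ) * Complex.I)),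
    ← charFun_apply, ← charFun_apply, charFun_stdGaussian, charFun_stdGaussian,
    charFun_gaussianReal, ← Complex.exp_add]
  congr 1
  have h2 : ‖t - (inner ℝ e t : ℝ) • e‖ ^ 2 = ‖t‖ ^ 2 - (inner ℝ e t : ℝ) ^ 2 := by
    rw [norm_sub_sq_real, inner_smul_right, norm_smul, he, real_inner_comm]
    simp only [Real.norm_eq_abs, mul_one, sq_abs]
    ring
  have h3 : ((‖t - (inner ℝ e t : ℝ) • e‖ : ℂ)) ^ 2 = (‖t‖ : ℂ) ^ 2 - ((inner ℝ e t : ℝ) : ℂ) ^ 2 := by
    exact_mod_cast h2
  rw [h3]
  push_cast
  ring

end P4aux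

theorem smallball {d : ℕ} (W : Submodule ℝ (E d)) (L : Finset (E d)) (hL : ∀ v ∈ L, v ∈ W) (u : E d)
    (η : ℝ) (hη : 0 < η) :
    stdGaussian (E d) {x | (∀ v ∈ L, |inner ℝ x v| < η) ∧ |inner ℝ x u| < η} ≤
      stdGaussian (E d) {x | ∀ v ∈ L, |inner ℝ x v| < η} *
        (ENNReal.ofReal η * (ENNReal.ofReal (dW W u))⁻¹) := by
  set A : Set (E d) := {x | ∀ v ∈ L, |inner ℝ x v| < η} with hA
  set D := dW W u with hD
  have hD0 : 0 ≤ D := norm_nonneg _
  have hAm : MeasurableSet A := by
    have : A = ⋂ v ∈ L, {x : E d | |inner ℝ x v| < η} := by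
      ext x; simp [hA]
    rw [this]
    apply Finset.measurableSet_biInter
    intro v _
    exact measurableSet_lt (by fun_prop) measurable_const
  have hsub : {x : E d | (∀ v ∈ L, |inner ℝ x v| < η) ∧ |inner ℝ x u| < η} =
      A ∩ {x | |inner ℝ x u| < η} := rfl
  rw [hsub]
  rcases hD0.eq_or_lt with h0 | h0
  · rw [← h0, ENNReal.ofReal_zero, ENNReal.inv_zero,
      ENNReal.mul_top (ENNReal.ofReal_pos.mpr hη).ne']
    rcases eq_or_ne (stdGaussian (E d) A) 0 with h | h
    · rw [h, zero_mul]
      exact (measure_mono Set.inter_subset_left).trans h.le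
    · rw [ENNReal.mul_top h]
      exact le_top
  · set e : E d := D⁻¹ • (u - W.starProjection u) with he
    have hnorm : ‖e‖ = 1 := by
      rw [he, norm_smul, norm_inv, Real.norm_eq_abs, abs_of_pos h0]
      exact inv_mul_cancel₀ h0.ne'
    have hperp : ∀ w ∈ W, (inner ℝ w e : ℝ) = 0 := by
      intro w hw
      rw [he, inner_smul_right]
      have : (inner ℝ w (u - W.starProjection u) : ℝ) = 0 :=
        (W.mem_orthogonal _).mp (Submodule.sub_starProjection_mem_orthogonal u) w hw
      rw [this, mul_zero]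
    have hue : (inner ℝ e u : ℝ) = D := by
      have h2 : (inner ℝ (u - W.starProjection u) (W.starProjection u) : ℝ) = 0 := by
        rw [real_inner_comm]
        exact (W.mem_orthogonal _).mp (Submodule.sub_starProjection_mem_orthogonal u) _
          (Submodule.starProjection_apply_mem W u)
      have h3 : (inner ℝ (u - W.starProjection u) u : ℝ) = D ^ 2 := by
        calc (inner ℝ (u - W.starProjection u) u : ℝ)
            = inner ℝ (u - W.starProjection u) ((u - W.starProjection u) + W.starProjection u) := by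
              rw [sub_add_cancel]
          _ = D ^ 2 := by
              rw [inner_add_right, h2, add_zero, real_inner_self_eq_norm_sq]
              rfl
      rw [he, inner_smul_left, h3]
      simp only [conj_trivial]
      field_simp
    have hB : MeasurableSet (A ∩ {x : E d | |inner ℝ x u| < η}) :=
      hAm.inter (measurableSet_lt (by fun_prop) measurable_const)
    conv_lhs => rw [← P4aux.map_Phi e hnorm]
    rw [Measure.map_apply (P4aux.measurable_Phi e) hB,
      Measure.prod_apply_symm (P4aux.measurable_Phi e hB)]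
    have key : ∀ x : E d, gaussianReal 0 1 ((fun z => (z, x)) ⁻¹' (P4aux.Phi e ⁻¹'
        (A ∩ {x : E d | |inner ℝ x u| < η}))) ≤
        A.indicator (fun _ => ENNReal.ofReal η * (ENNReal.ofReal D)⁻¹) x := by
      intro x
      have hPA : ∀ z : ℝ, P4aux.Phi e (z, x) ∈ A ↔ x ∈ A := by
        intro z
        simp only [hA, Set.mem_ofPred_eq]
        have : ∀ v ∈ L, (inner ℝ (P4aux.Phi e (z, x)) v : ℝ) = inner ℝ x v := by
          intro v hv
          have h1 : (inner ℝ e v : ℝ) = 0 := by
            rw [real_inner_comm]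
            exact hperp v (hL v hv)
          rw [P4aux.inner_Phi, h1]
          ring
        constructor
        · intro h v hv
          rw [← this v hv]; exact h v hv
        · intro h v hv
          rw [this v hv]; exact h v hv
      by_cases hx : x ∈ A
      · rw [Set.indicator_of_mem hx]
        refine (measure_mono ?_).trans
          (P4aux.gauss_slab (inner ℝ (x - (inner ℝ x e : ℝ) • e) u) D η h0 hη)
        intro z hz
        have hz2 : |(inner ℝ (P4aux.Phi e (z, x)) u : ℝ)| < η := hz.2
        rw [Set.mem_ofPred_eq]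
        have : (inner ℝ (P4aux.Phi e (z, x)) u : ℝ) =
            inner ℝ (x - (inner ℝ x e : ℝ) • e) u + z * D := by
          rw [P4aux.inner_Phi, hue, inner_sub_left, inner_smul_left, hue]
          simp
        rwa [this] at hz2
      · rw [Set.indicator_of_notMem hx]
        have : (fun z => (z, x)) ⁻¹' (P4aux.Phi e ⁻¹'
            (A ∩ {x : E d | |inner ℝ x u| < η})) = ∅ := by
          rw [Set.eq_empty_iff_forall_notMem]
          intro z hz
          exact hx ((hPA z).mp hz.1)
        rw [this, measure_empty]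
    refine (lintegral_mono key).trans ?_
    rw [lintegral_indicator hAm, setLIntegral_const, mul_comm]

end Crest.Agent.R322
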