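import Crest.Agent.R322.P4SmallBall

/-!
# R322 piece P5: moments of the mass of a slab

For a finite set `L` of vectors put `Q n L = ∫ 1[∀ t, ∀ v ∈ L, |⟪X t, v⟫| < η] h(X)^n dX`, `h(X) = lam {s | ∀ t, |⟪X t, s - s₀⟫| < η}`.
`Q 0 L = (γ {x | ∀ v ∈ L, |⟪x,v⟫| < η})^m` (product set), `Q (n+1) L = ∫ lam(ds) Q n (insert (s - s₀) L)` (Fubini).
Claim `Q n L ≤ (η^m Λ)^n Q 0 L` when `L.card + n ≤ k`, by induction on `n` generalizing `L`, using `smallball` with `W = span L`
(`finrank ≤ card < k`).  Take `L = ∅`.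
-/

set_option autoImplicit false

namespace Crest.Agent.R322

open MeasureTheory ProbabilityTheory Crest.StreamLearn
open scoped ENNReal

namespace P5aux

variable {d m : ℕ}

/-- one vector -/
def AL (η : ℝ) (L : Finset (E d)) : Set (E d) := {x | ∀ v ∈ L, |inner ℝ x v| < η}

/-- `m` vectors -/
def BL (m : ℕ) (η : ℝ) (L : Finset (E d)) : Set (Fin m → E d) :=
  {X | ∀ t, ∀ v ∈ L, |inner ℝ (X t) v| < η}

/-- pairs -/
def SS (m : ℕ) (η : ℝ) (s₀ : E d) : Set ((Fin m → E d) × E d) :=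
  {p | ∀ t, |inner ℝ (p.1 t) (p.2 - s₀)| < η}

lemma meas_SS (η : ℝ) (s₀ : E d) : MeasurableSet (SS m η s₀) := by
  have : SS m η s₀ = ⋂ t, {p : (Fin m → E d) × E d | |inner ℝ (p.1 t) (p.2 - s₀)| < η} := by
    ext p; simp [SS]
  rw [this]
  apply MeasurableSet.iInter
  intro t
  have h1 : Measurable (fun p : (Fin m → E d) × E d => p.1 t) :=
    (measurable_pi_apply t).comp measurable_fst
  exact measurableSet_lt (by fun_prop) measurable_const

lemma meas_BL (η : ℝ) (L : Finset (E d)) : MeasurableSet (BL m η L) := by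
  have : BL m η L = ⋂ t, ⋂ v ∈ L, {X : Fin m → E d | |inner ℝ (X t) v| < η} := by
    ext p; simp [BL]
  rw [this]
  apply MeasurableSet.iInter
  intro t
  apply Finset.measurableSet_biInter
  intro v _
  have h1 : Measurable (fun X : Fin m → E d => X t) := measurable_pi_apply t
  exact measurableSet_lt (by fun_prop) measurable_const

lemma gm_BL (η : ℝ) (L : Finset (E d)) :
    gm d m (BL m η L) = (stdGaussian (E d) (AL η L)) ^ m := by
  have : BL m η L = Set.pi Set.univ (fun _ : Fin m => AL η L) := by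
    ext X; simp [BL, AL]
  rw [this, Measure.pi_pi]
  simp

/-- the mass of the slab -/
noncomputable def hh (lam : Measure (E d)) (m : ℕ) (η : ℝ) (s₀ : E d) (X : Fin m → E d) : ℝ≥0∞ :=
  lam {s | ∀ t, |inner ℝ (X t) (s - s₀)| < η}

lemma hh_eq (lam : Measure (E d)) [IsFiniteMeasure lam] (η : ℝ) (s₀ : E d) (X : Fin m → E d) :
    hh lam m η s₀ X = ∫⁻ s, (SS m η s₀).indicator 1 (X, s) ∂lam := by
  have h1 : (fun s => (SS m η s₀).indicator (1 : (Fin m → E d) × E d → ℝ≥0∞) (X, s)) =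
      (Prod.mk X ⁻¹' (SS m η s₀)).indicator 1 := by
    ext s
    rfl
  rw [h1, lintegral_indicator_one (measurable_prodMk_left (meas_SS η s₀))]
  rfl

lemma meas_hh (lam : Measure (E d)) [IsFiniteMeasure lam] (η : ℝ) (s₀ : E d) :
    Measurable (hh lam m η s₀) :=
  measurable_measure_prodMk_left (meas_SS η s₀)

/-- the integrand -/
noncomputable def FF (lam : Measure (E d)) (m : ℕ) (η : ℝ) (s₀ : E d) (n : ℕ) (L : Finset (E d))
    (X : Fin m → E d) : ℝ≥0∞ :=
  (BL m η L).indicator (fun X => hh lam m η s₀ X ^ n) X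

lemma meas_FF (lam : Measure (E d)) [IsFiniteMeasure lam] (η : ℝ) (s₀ : E d) (n : ℕ)
    (L : Finset (E d)) : Measurable (FF lam m η s₀ n L) :=
  ((meas_hh lam η s₀).pow_const n).indicator (meas_BL η L)

open Classical in
lemma FF_mul (lam : Measure (E d)) (η : ℝ) (s₀ : E d) (n : ℕ) (L : Finset (E d))
    (X : Fin m → E d) (s : E d) :
    FF lam m η s₀ n L X * (SS m η s₀).indicator 1 (X, s) =
      FF lam m η s₀ n (insert (s - s₀) L) X := by
  have h1 : X ∈ BL m η (insert (s - s₀) L) ↔ X ∈ BL m η L ∧ (X, s) ∈ SS m η s₀ := by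
    constructor
    · intro h
      refine ⟨fun t v hv => h t v (Finset.mem_insert_of_mem hv), fun t => ?_⟩
      exact h t (s - s₀) (Finset.mem_insert_self _ _)
    · rintro ⟨h, h'⟩ t v hv
      rcases Finset.mem_insert.mp hv with h2 | h2
      · rw [h2]; exact h' t
      · exact h t v h2
  unfold FF
  by_cases ha : X ∈ BL m η L
  · by_cases hb : (X, s) ∈ SS m η s₀
    · rw [Set.indicator_of_mem ha, Set.indicator_of_mem hb, Set.indicator_of_mem (h1.mpr ⟨ha, hb⟩)]
      simp
    · rw [Set.indicator_of_notMem hb, Set.indicator_of_notMem (fun h => hb (h1.mp h).2), mul_zero]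
  · rw [Set.indicator_of_notMem ha, Set.indicator_of_notMem (fun h => ha (h1.mp h).1), zero_mul]

open Classical in
lemma succ_step (lam : Measure (E d)) [IsFiniteMeasure lam] (η : ℝ) (s₀ : E d) (n : ℕ)
    (L : Finset (E d)) :
    ∫⁻ X, FF lam m η s₀ (n + 1) L X ∂(gm d m) =
      ∫⁻ s, ∫⁻ X, FF lam m η s₀ n (insert (s - s₀) L) X ∂(gm d m) ∂lam := by
  have h1 : ∀ X : Fin m → E d, FF lam m η s₀ (n + 1) L X =
      ∫⁻ s, FF lam m η s₀ n L X * (SS m η s₀).indicator 1 (X, s) ∂lam := by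
    intro X
    have hm : Measurable (fun s : E d => (SS m η s₀).indicator
        (1 : (Fin m → E d) × E d → ℝ≥0∞) (X, s)) :=
      (measurable_one.indicator (meas_SS η s₀)).comp measurable_prodMk_left
    rw [lintegral_const_mul _ hm, ← hh_eq]
    unfold FF
    by_cases ha : X ∈ BL m η L
    · rw [Set.indicator_of_mem ha, Set.indicator_of_mem ha, pow_succ]
    · rw [Set.indicator_of_notMem ha, Set.indicator_of_notMem ha, zero_mul]
  simp_rw [h1]
  rw [lintegral_lintegral_swap]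
  · simp_rw [FF_mul]
  · apply Measurable.aemeasurable
    exact ((meas_FF lam η s₀ n L).comp measurable_fst).mul
      (measurable_one.indicator (meas_SS η s₀))

lemma zero_case (lam : Measure (E d)) (η : ℝ) (s₀ : E d) (L : Finset (E d)) :
    ∫⁻ X, FF lam m η s₀ 0 L X ∂(gm d m) = (stdGaussian (E d) (AL η L)) ^ m := by
  rw [← gm_BL]
  unfold FF
  simp only [pow_zero]
  rw [lintegral_indicator (meas_BL η L)]
  simp

lemma main {k : ℕ} (lam : Measure (E d)) [IsFiniteMeasure lam] (Λ : ℝ≥0∞)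
    (s₀ : E d)
    (hΛ : ∀ W : Submodule ℝ (E d), Module.finrank ℝ W < k →
      ∫⁻ s, (ENNReal.ofReal (dW W (s - s₀)))⁻¹ ^ m ∂lam ≤ Λ)
    (η : ℝ) (hη : 0 < η) (n : ℕ) : ∀ (L : Finset (E d)), L.card + n ≤ k →
    ∫⁻ X, FF lam m η s₀ n L X ∂(gm d m) ≤
      (ENNReal.ofReal η ^ m * Λ) ^ n * (stdGaussian (E d) (AL η L)) ^ m := by
  classical
  induction n with
  | zero =>
    intro L _
    rw [zero_case, pow_zero, one_mul]
  | succ n ih =>
    intro L hL
    rw [succ_step]
    have hspan : Module.finrank ℝ (Submodule.span ℝ (L : Set (E d))) < k :=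
      lt_of_le_of_lt (finrank_span_finset_le_card L) (by omega)
    set a := stdGaussian (E d) (AL η L) with ha
    set c := (ENNReal.ofReal η ^ m * Λ) ^ n with hc
    have h1 : ∀ s, ∫⁻ X, FF lam m η s₀ n (insert (s - s₀) L) X ∂(gm d m) ≤
        c * (a ^ m * (ENNReal.ofReal η ^ m *
          (ENNReal.ofReal (dW (Submodule.span ℝ (L : Set (E d))) (s - s₀)))⁻¹ ^ m)) := by
      intro s
      have hcard : (insert (s - s₀) L).card + n ≤ k := by
        have := Finset.card_insert_le (s - s₀) L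
        omega
      refine (ih _ hcard).trans ?_
      rw [← mul_pow (ENNReal.ofReal η), ← mul_pow a]
      apply mul_le_mul_right
      apply pow_le_pow_left'
      have h2 := smallball (Submodule.span ℝ (L : Set (E d))) L
        (fun v hv => Submodule.subset_span hv) (s - s₀) η hη
      refine le_trans (le_of_eq ?_) h2
      congr 1
      ext x
      constructor
      · intro h
        exact ⟨fun v hv => h v (Finset.mem_insert_of_mem hv), h _ (Finset.mem_insert_self _ _)⟩
      · rintro ⟨h, h'⟩ v hv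
        rcases Finset.mem_insert.mp hv with h3 | h3
        · rw [h3]; exact h'
        · exact h v h3
    refine (lintegral_mono h1).trans ?_
    have hm : Measurable (fun s : E d =>
        (ENNReal.ofReal (dW (Submodule.span ℝ (L : Set (E d))) (s - s₀)))⁻¹ ^ m) := by
      unfold dW
      fun_prop
    rw [lintegral_const_mul _ ((hm.const_mul _).const_mul _),
      lintegral_const_mul _ (hm.const_mul _), lintegral_const_mul _ hm]
    have h4 := hΛ _ hspan
    calc c * (a ^ m * (ENNReal.ofReal η ^ m * ∫⁻ s,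
          (ENNReal.ofReal (dW (Submodule.span ℝ (L : Set (E d))) (s - s₀)))⁻¹ ^ m ∂lam))
        ≤ c * (a ^ m * (ENNReal.ofReal η ^ m * Λ)) := by gcongr
      _ = (ENNReal.ofReal η ^ m * Λ) ^ (n + 1) * a ^ m := by
          rw [hc, pow_succ]
          ring

end P5aux

theorem replica {d m k : ℕ} (lam : Measure (E d)) [IsFiniteMeasure lam] (Λ : ℝ≥0∞)
    (s₀ : E d)
    (hΛ : ∀ W : Submodule ℝ (E d), Module.finrank ℝ W < k →
      ∫⁻ s, (ENNReal.ofReal (dW W (s - s₀)))⁻¹ ^ m ∂lam ≤ Λ)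
    (η : ℝ) (hη : 0 < η) (n : ℕ) (hn : n ≤ k) :
    ∫⁻ X, (lam {s | ∀ t, |inner ℝ (X t) (s - s₀)| < η}) ^ n ∂(gm d m) ≤
      (ENNReal.ofReal η ^ m * Λ) ^ n := by
  have h1 := P5aux.main lam Λ s₀ hΛ η hη n ∅ (by simpa using hn)
  have h2 : ∀ X : Fin m → E d, P5aux.FF lam m η s₀ n ∅ X =
      (lam {s | ∀ t, |inner ℝ (X t) (s - s₀)| < η}) ^ n := by
    intro X
    unfold P5aux.FF
    rw [Set.indicator_of_mem]
    · rfl
    · intro t v hv
      simp at hv
  simp_rw [h2] at h1
  refine h1.trans ?_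
  have h3 : stdGaussian (E d) (P5aux.AL η ∅) ^ m ≤ 1 := pow_le_one' prob_le_one m
  calc _ ≤ (ENNReal.ofReal η ^ m * Λ) ^ n * 1 := mul_le_mul_right h3 _
    _ = _ := mul_one _

end Crest.Agent.R322
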