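import Crest.Agent.R322.P5Replica

/-!
# R322 piece P5b: k-th moment of the cell masses

For fixed `X`: `Σ_c ν(c)^k = ∫ lam(ds₀) ν(cell of s₀)^(k-1)` (`ν(c) = lam {s | cell η (meas X s) = c}`, countably many `c`), and `s` in the same cell
as `s₀` has `|⟪X t, s - s₀⟫| < η` for all `t`.  So the left side is `≤ ∫_X ∫ lam(ds₀) lam{s | ∀ t, |⟪X t,s-s₀⟫| < η}^(k-1)`; Tonelli, then `replica`
with `n = k - 1`.
-/

set_option autoImplicit false

namespace Crest.Agent.R322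

open MeasureTheory ProbabilityTheory Crest.StreamLearn
open scoped ENNReal

theorem moment {d m k : ℕ} (hk : 1 ≤ k) (lam : Measure (E d)) [IsFiniteMeasure lam] (Λ : ℝ≥0∞)
    (hΛ : ∀ (W : Submodule ℝ (E d)) (s₀ : E d), Module.finrank ℝ W < k →
      ∫⁻ s, (ENNReal.ofReal (dW W (s - s₀)))⁻¹ ^ m ∂lam ≤ Λ)
    (η : ℝ) (hη : 0 < η) :
    ∫⁻ X, ∑' c : Fin m → ℤ, (lam {s | cell η (meas X s) = c}) ^ k ∂(gm d m) ≤
      lam Set.univ * (ENNReal.ofReal η ^ m * Λ) ^ (k - 1) := by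
  sorry

end Crest.Agent.R322
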