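import Crest.Agent.R322.Defs

/-!
# R322 piece P6a: chi-square tail

For `‖u‖ ≤ R`: `Σ_t ⟪X t,u⟫² ≤ 12 d R²` except with probability `2^{-d}`: `⟪X t,u⟫` is `N(0,‖u‖²)`, `E exp(⟪X t,u⟫²/(4R²)) ≤ √2`
(`= (1-2a)^{-1/2}`, `a = ‖u‖²/(4R²) ≤ 1/4`), independence (product measure), Markov: `e^{-3d} 2^{m/2} ≤ 2^{-d}`.
-/

set_option autoImplicit false

namespace Crest.Agent.R322

open MeasureTheory ProbabilityTheory Crest.StreamLearn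
open scoped ENNReal

theorem chi_tail {d m : ℕ} (hmd : m ≤ d) (R : ℝ) (hR : 0 < R) (u : E d) (hu : ‖u‖ ≤ R) :
    gm d m {X | 12 * d * R ^ 2 < ∑ t, (inner ℝ (X t) u : ℝ) ^ 2} ≤ (2⁻¹ : ℝ≥0∞) ^ d := by
  sorry

end Crest.Agent.R322
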