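import Crest.Agent.R322.Defs

/-!
# R322 piece P6b: number of cells meeting a ball

The cells `c ∈ C` are disjoint half open cubes of volume `η^m`, contained in `{y | Σ (y t - a t)² ≤ 20 d R²}` (Minkowski:
`√12 √d R + √m η ≤ √20 √d R`), where `exp(-Σ (y t - a t)²/(2R²)) ≥ e^{-10 d}`.  The integral of this Gaussian is `(√(2π) R)^m`.
So `card C · η^m ≤ e^{10 d} (√(2π) R)^m ≤ 2^{17 d} R^m`.
-/

set_option autoImplicit false

namespace Crest.Agent.R322

open MeasureTheory ProbabilityTheory Crest.StreamLearn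
open scoped ENNReal

theorem cell_count {d m : ℕ} (hmd : m ≤ d) (hd : 1 ≤ d) (R η : ℝ) (hR : 0 < R) (hη : 0 < η) (hηR : η ≤ R)
    (a : Fin m → ℝ) (C : Finset (Fin m → ℤ))
    (hC : ∀ c ∈ C, ∃ y : Fin m → ℝ, cell η y = c ∧ ∑ t, (y t - a t) ^ 2 ≤ 12 * d * R ^ 2) :
    (C.card : ℝ≥0∞) * ENNReal.ofReal (η / R) ^ m ≤ 2 ^ (17 * d) := by
  sorry

end Crest.Agent.R322
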