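import Crest.Agent.R322.P6aChi
import Crest.Agent.R322.P6bCount

/-!
# R322 piece P6c: the cell of the measurement vector is rarely too light

Tonelli.  For `s ∈ closedBall z R`: `chi_tail` with `u = s - z`.  For fixed `X` (`a = meas X z`), the set `C` of cells meeting
`{y : Σ (y t - a t)² ≤ 12 d R²}` is finite with `card C · (η/R)^m ≤ 2^{17d}` by `cell_count` (applied to finite subsets), so
`P {s : Σ_t ⟪X t, s - z⟫² ≤ 12 d R², P(cell of s) < θ} ≤ Σ_{c ∈ C, P(c) < θ} P(c) ≤ θ card C ≤ 2^{-d}`, `θ = 2^{-18d} (η/R)^m`.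
-/

set_option autoImplicit false

namespace Crest.Agent.R322

open MeasureTheory ProbabilityTheory Crest.StreamLearn
open scoped ENNReal

theorem bad_cells {d m : ℕ} (hmd : m ≤ d) (hd : 1 ≤ d) (P : Measure (E d)) [IsProbabilityMeasure P]
    {z : E d} {R : ℝ} (hR : 0 < R) (hP : P (Metric.closedBall z R)ᶜ = 0)
    {η : ℝ} (hη : 0 < η) (hηR : η ≤ R) :
    ∫⁻ s, gm d m {X | P {s' | cell η (meas X s') = cell η (meas X s)} <
      (2⁻¹ : ℝ≥0∞) ^ (18 * d) * ENNReal.ofReal (η / R) ^ m} ∂P ≤ 2 * (2⁻¹ : ℝ≥0∞) ^ d := by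
  sorry

end Crest.Agent.R322
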