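import Crest.Agent.R322.Defs

/-!
# R322 piece P7f: Tonelli for cell-measurable sets, measurability

`H ⊆ (samples) × (cells)` measurable.  Joint measurability of `(s, X) ↦ cell η (meas X s)`; `lam {s | cell η (meas X s) = c}` is measurable in
`X` for each of the countably many `c`.
-/

set_option autoImplicit false

namespace Crest.Agent.R322

open MeasureTheory ProbabilityTheory Crest.StreamLearn
open scoped ENNReal

theorem gen_fub {α β γ : Type} [MeasurableSpace α] [MeasurableSpace β] [MeasurableSpace γ]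
    [Countable γ] [MeasurableSingletonClass γ] (f : α × β → γ) (hf : Measurable f)
    (H : Set (β × γ)) (hH : MeasurableSet H) (lam : Measure α) (G : Measure β) [SFinite lam]
    [SFinite G] :
    ∫⁻ s, G {X | (X, f (s, X)) ∈ H} ∂lam =
      ∫⁻ X, ∑' c, Set.indicator {c | (X, c) ∈ H} (fun c => lam {s | f (s, X) = c}) c ∂G := by
  have hS : MeasurableSet {p : α × β | (p.2, f p) ∈ H} := (measurable_snd.prodMk hf) hH
  have h3 : ∫⁻ s, G {X | (X, f (s, X)) ∈ H} ∂lam =
      ∫⁻ X, lam {s | (X, f (s, X)) ∈ H} ∂G := by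
    have h1 := Measure.prod_apply (μ := lam) (ν := G) hS
    have h2 := Measure.prod_apply_symm (μ := lam) (ν := G) hS
    exact h1.symm.trans h2
  rw [h3]
  refine lintegral_congr fun X => ?_
  have hcell : Measurable fun s : α => f (s, X) := hf.comp (measurable_id.prodMk measurable_const)
  have hc : MeasurableSet {c : γ | (X, c) ∈ H} := (Set.to_countable _).measurableSet
  have h4 := Measure.tsum_indicator_apply_singleton (lam.map fun s : α => f (s, X))
    {c : γ | (X, c) ∈ H} hc
  rw [Measure.map_apply hcell hc] at h4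
  refine Eq.trans h4.symm ?_
  refine tsum_congr fun c => ?_
  by_cases hcm : c ∈ {c : γ | (X, c) ∈ H}
  · rw [Set.indicator_of_mem hcm, Set.indicator_of_mem hcm,
      Measure.map_apply hcell (measurableSet_singleton c)]
    rfl
  · rw [Set.indicator_of_notMem hcm, Set.indicator_of_notMem hcm]

theorem gen_heavy {α β γ : Type} [MeasurableSpace α] [MeasurableSpace β] [MeasurableSpace γ]
    [Countable γ] [MeasurableSingletonClass γ] (f : α × β → γ) (hf : Measurable f)
    (P : Measure α) [SFinite P] (θ : ℝ≥0∞) :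
    MeasurableSet {q : β × γ | θ ≤ P {s | f (s, q.1) = q.2}} := by
  have hS : MeasurableSet {p : (β × γ) × α | f (p.2, p.1.1) = p.1.2} := by
    have h1 : Measurable fun p : (β × γ) × α => f (p.2, p.1.1) :=
      hf.comp (measurable_snd.prodMk (measurable_fst.fst))
    have h2 : Measurable fun p : (β × γ) × α => p.1.2 := measurable_fst.snd
    have h3 : {p : (β × γ) × α | f (p.2, p.1.1) = p.1.2} =
        ⋃ c : γ, ((fun p : (β × γ) × α => f (p.2, p.1.1)) ⁻¹' {c} ∩
          (fun p : (β × γ) × α => p.1.2) ⁻¹' {c}) := by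
      ext p
      simp only [Set.mem_ofPred_eq, Set.mem_iUnion, Set.mem_inter_iff, Set.mem_preimage,
        Set.mem_singleton_iff]
      constructor
      · intro h
        exact ⟨p.1.2, h, rfl⟩
      · rintro ⟨c, h, h'⟩
        rw [h, h']
    rw [h3]
    exact MeasurableSet.iUnion fun c =>
      (h1 (measurableSet_singleton c)).inter (h2 (measurableSet_singleton c))
  have h4 := measurable_measure_prodMk_left (ν := P) hS
  exact measurableSet_le measurable_const h4

/-- joint measurability of the cell of the measurement vector -/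
theorem cell_meas_measurable {d m : ℕ} (η : ℝ) :
    Measurable fun p : E d × (Fin m → E d) => cell η (meas p.2 p.1) := by
  rw [measurable_pi_iff]
  intro t
  have h1 : Measurable fun p : E d × (Fin m → E d) => inner ℝ (p.2 t) p.1 := by
    have : Continuous fun p : E d × (Fin m → E d) => inner ℝ (p.2 t) p.1 := by fun_prop
    exact this.measurable
  exact Int.measurable_floor.comp (h1.div_const η)

/-- the event, in (signal, samples) space -/
theorem event_measurable {d m : ℕ} (η : ℝ) (H : Set ((Fin m → E d) × (Fin m → ℤ))) (hH : MeasurableSet H) :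
    MeasurableSet {p : E d × (Fin m → E d) | (p.2, cell η (meas p.2 p.1)) ∈ H} := by
  have h1 : Measurable fun p : E d × (Fin m → E d) => (p.2, cell η (meas p.2 p.1)) :=
    measurable_snd.prodMk (cell_meas_measurable η)
  exact h1 hH

/-- Tonelli -/
theorem fub {d m : ℕ} (η : ℝ) (H : Set ((Fin m → E d) × (Fin m → ℤ))) (hH : MeasurableSet H)
    (lam : Measure (E d)) [IsFiniteMeasure lam] :
    ∫⁻ s, gm d m {X | (X, cell η (meas X s)) ∈ H} ∂lam =
      ∫⁻ X, ∑' c : Fin m → ℤ, Set.indicator {c | (X, c) ∈ H}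
        (fun c => lam {s | cell η (meas X s) = c}) c ∂(gm d m) := by
  exact gen_fub (fun p : E d × (Fin m → E d) => cell η (meas p.2 p.1)) (cell_meas_measurable η)
    H hH lam (gm d m)

/-- the cells that are not too light -/
theorem heavy_measurable {d m : ℕ} (P : Measure (E d)) [IsFiniteMeasure P] (η : ℝ) (θ : ℝ≥0∞) :
    MeasurableSet {q : (Fin m → E d) × (Fin m → ℤ) | θ ≤ P {s' | cell η (meas q.1 s') = q.2}} := by
  exact gen_heavy (fun p : E d × (Fin m → E d) => cell η (meas p.2 p.1))
    (cell_meas_measurable η) P θ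

/-- truncated likelihood -/
noncomputable def wfun {d m : ℕ} (P : Measure (E d)) (η : ℝ) (θ : ℝ≥0∞)
    (G : Set ((Fin m → E d) × (Fin m → ℤ))) (s : E d) : ℝ≥0∞ :=
  gm d m {X | (X, cell η (meas X s)) ∈ G ∧
    θ ≤ P {s' | cell η (meas X s') = cell η (meas X s)}}

theorem wfun_measurable {d m : ℕ} (P : Measure (E d)) [IsFiniteMeasure P] (η : ℝ) (θ : ℝ≥0∞)
    (G : Set ((Fin m → E d) × (Fin m → ℤ))) (hG : MeasurableSet G) :
    Measurable (wfun P η θ G) := by
  have hG' : MeasurableSet (G ∩ {q : (Fin m → E d) × (Fin m → ℤ) |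
      θ ≤ P {s' | cell η (meas q.1 s') = q.2}}) := hG.inter (heavy_measurable P η θ)
  have h1 := event_measurable η _ hG'
  exact measurable_measure_prodMk_left (ν := gm d m) h1

theorem wfun_le_one {d m : ℕ} (P : Measure (E d)) (η : ℝ) (θ : ℝ≥0∞)
    (G : Set ((Fin m → E d) × (Fin m → ℤ))) (s : E d) : wfun P η θ G s ≤ 1 := by
  exact prob_le_one

/-- Tonelli for the truncated likelihood -/
theorem wfun_fub {d m : ℕ} (P : Measure (E d)) [IsFiniteMeasure P] (η : ℝ) (θ : ℝ≥0∞)
    (G : Set ((Fin m → E d) × (Fin m → ℤ))) (hG : MeasurableSet G)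
    (lam : Measure (E d)) [IsFiniteMeasure lam] :
    ∫⁻ s, wfun P η θ G s ∂lam =
      ∫⁻ X, ∑' c : Fin m → ℤ, Set.indicator {c | (X, c) ∈ G ∧ θ ≤ P {s' | cell η (meas X s') = c}}
        (fun c => lam {s | cell η (meas X s) = c}) c ∂(gm d m) := by
  have hG' : MeasurableSet (G ∩ {q : (Fin m → E d) × (Fin m → ℤ) |
      θ ≤ P {s' | cell η (meas q.1 s') = q.2}}) := hG.inter (heavy_measurable P η θ)
  exact fub η _ hG' lam

end Crest.Agent.R322
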