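import Crest.Agent.R322.P5bMoment
import Crest.Agent.R322.P7fFub

/-!
# R322 piece P7a: the second moment bound

`N = ∫ w² dP`, `W = ∫ w dP ≤ √N`, `lam = P.withDensity w`, `ν_X(c) = lam {s | cell η (meas X s) = c}`, `p_X(c) = P {s | …}`.
`N = ∫ w dlam = ∫_X Σ_{c : (X,c) ∈ G, p_X(c) ≥ θ} ν_X(c)` (`wfun_fub`) and for such `c`, any `t > 0`: `ν_X(c) ≤ t p_X(c) + (tθ)^{-(k-1)} ν_X(c)^k`
(two cases `ν ≤ t p` or not).  So `N ≤ t q + (tθ)^{-(k-1)} ∫_X Σ_c ν_X(c)^k ≤ t q + (tθ)^{-(k-1)} W (η^m Λ)^{k-1}` by `fub` and `moment`, where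
`Λ = R^{-m} √(N CP)` by Cauchy–Schwarz.  With `t = b √(N CP) u`:
`N ≤ b √CP u √N q + W u^{-(k-1)}`, and `W u^{-(k-1)} ≤ W²/2 ≤ N/2`.  So `√N ≤ 2 b √CP u q`.
-/

set_option autoImplicit false

namespace Crest.Agent.R322

open MeasureTheory ProbabilityTheory Crest.StreamLearn
open scoped ENNReal

/-- two cases -/
theorem P7a_two_case (ν p θ t : ℝ≥0∞) (k : ℕ) (hk : 1 ≤ k) (ht0 : t ≠ 0) (htt : t ≠ ∞)
    (hθ : θ ≠ 0) (hθ' : θ ≠ ∞) (hp : θ ≤ p) : ν ≤ t * p + (t * θ)⁻¹ ^ (k - 1) * ν ^ k := by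
  rcases le_or_gt ν (t * p) with h | h
  · exact h.trans le_self_add
  · have h1 : t * θ ≤ ν := (mul_le_mul_right hp t).trans h.le
    have h0 : t * θ ≠ 0 := mul_ne_zero ht0 hθ
    have htop : t * θ ≠ ∞ := ENNReal.mul_ne_top htt hθ'
    refine le_trans ?_ le_add_self
    obtain ⟨n, rfl⟩ : ∃ n, k = n + 1 := ⟨k - 1, by omega⟩
    rw [Nat.add_sub_cancel, pow_succ, ← mul_assoc, ← mul_pow]
    have h2 : 1 ≤ (t * θ)⁻¹ * ν := by
      rw [← ENNReal.inv_mul_cancel h0 htop]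
      exact mul_le_mul_right h1 _
    calc ν = 1 * ν := (one_mul _).symm
      _ ≤ ((t * θ)⁻¹ * ν) ^ n * ν := mul_le_mul_left (one_le_pow₀ h2) _

theorem P7a_cs {α : Type*} [MeasurableSpace α] (μ : Measure α) {f g : α → ℝ≥0∞}
    (hf : Measurable f) (hg : Measurable g) :
    ∫⁻ a, f a * g a ∂μ ≤ (∫⁻ a, f a ^ 2 ∂μ) ^ (1 / 2 : ℝ) * (∫⁻ a, g a ^ 2 ∂μ) ^ (1 / 2 : ℝ) := by
  have := ENNReal.lintegral_mul_le_Lp_mul_Lq μ Real.HolderConjugate.two_two hf.aemeasurable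
    hg.aemeasurable
  simpa using this

theorem P7a_sqrt_sq (x : ℝ≥0∞) : (x ^ (1 / 2 : ℝ)) ^ 2 = x := by
  rw [← ENNReal.rpow_natCast, ← ENNReal.rpow_mul]
  norm_num

theorem Nbound {d m k : ℕ} (hk : 2 ≤ k) (P : Measure (E d)) [IsProbabilityMeasure P]
    {R η : ℝ} (hR : 0 < R) (hη : 0 < η) (CP : ℝ≥0∞) (hCP : CP ≠ ∞) (hCP1 : 1 ≤ CP)
    (hint : ∀ (W : Submodule ℝ (E d)) (s₀ : E d), Module.finrank ℝ W < k →
      ∫⁻ s, (ENNReal.ofReal (dW W (s - s₀) / R))⁻¹ ^ (2 * m) ∂P ≤ CP)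
    (θ b : ℝ≥0∞) (hθ : θ ≠ 0) (hθ' : θ ≠ ∞) (hb : b ≠ ∞) (hθb : ENNReal.ofReal (η / R) ^ m ≤ b * θ)
    (G : Set ((Fin m → E d) × (Fin m → ℤ))) (hG : MeasurableSet G)
    (u : ℝ≥0∞) (hu : u ≠ ∞) (huW : 2 ≤ u ^ (k - 1) * ∫⁻ s, wfun P η θ G s ∂P) :
    ∫⁻ s, wfun P η θ G s ^ 2 ∂P ≤
      4 * b ^ 2 * CP * u ^ 2 * (∫⁻ s, gm d m {X | (X, cell η (meas X s)) ∈ G} ∂P) ^ 2 := by
  classical
  set w : E d → ℝ≥0∞ := wfun P η θ G with hw
  have hwm : Measurable w := wfun_measurable P η θ G hG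
  have hw1 : ∀ s, w s ≤ 1 := wfun_le_one P η θ G
  set N : ℝ≥0∞ := ∫⁻ s, w s ^ 2 ∂P with hN
  set W : ℝ≥0∞ := ∫⁻ s, w s ∂P with hW
  set q : ℝ≥0∞ := ∫⁻ s, gm d m {X | (X, cell η (meas X s)) ∈ G} ∂P with hq
  have hN1 : N ≤ 1 := by
    calc N ≤ ∫⁻ _, 1 ∂P := lintegral_mono fun s => pow_le_one₀ zero_le (hw1 s)
      _ = 1 := by simp
  have hW1 : W ≤ 1 := by
    calc W ≤ ∫⁻ _, 1 ∂P := lintegral_mono fun s => hw1 s
      _ = 1 := by simp
  have hNtop : N ≠ ∞ := ne_top_of_le_ne_top ENNReal.one_ne_top hN1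
  have hWtop : W ≠ ∞ := ne_top_of_le_ne_top ENNReal.one_ne_top hW1
  by_cases hN0 : N = 0
  · rw [hN0]; exact zero_le
  have hWN : W ^ 2 ≤ N := by
    have h1 := P7a_cs P hwm (measurable_const (a := (1 : ℝ≥0∞)))
    simp only [mul_one, one_pow, lintegral_one, measure_univ, ENNReal.one_rpow] at h1
    calc W ^ 2 ≤ (N ^ (1 / 2 : ℝ)) ^ 2 := pow_le_pow_left₀ zero_le h1 2
      _ = N := P7a_sqrt_sq N
  have hk1 : k - 1 ≠ 0 := by omega
  have hu0 : u ≠ 0 := by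
    rintro rfl
    rw [zero_pow hk1, zero_mul] at huW
    simp at huW
  have hηR : 0 < η / R := div_pos hη hR
  have hb0 : b ≠ 0 := by
    rintro rfl
    rw [zero_mul, nonpos_iff_eq_zero] at hθb
    exact (pow_ne_zero m (ENNReal.ofReal_pos.2 hηR).ne') hθb
  have hCP0 : CP ≠ 0 := fun h => by rw [h] at hCP1; simp at hCP1
  set r : ℝ≥0∞ := (CP * N) ^ (1 / 2 : ℝ) with hr
  have hr0 : r ≠ 0 := by
    rw [hr, Ne, ENNReal.rpow_eq_zero_iff]
    rintro (⟨h, -⟩ | ⟨-, h⟩)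
    · exact mul_ne_zero hCP0 hN0 h
    · norm_num at h
  have hrtop : r ≠ ∞ := by
    rw [hr]
    exact ENNReal.rpow_ne_top_of_nonneg (by norm_num) (ENNReal.mul_ne_top hCP hNtop)
  set t : ℝ≥0∞ := b * r * u with ht
  have ht0 : t ≠ 0 := mul_ne_zero (mul_ne_zero hb0 hr0) hu0
  have httop : t ≠ ∞ := ENNReal.mul_ne_top (ENNReal.mul_ne_top hb hrtop) hu
  set lam : Measure (E d) := P.withDensity w with hlam
  haveI : IsFiniteMeasure lam := isFiniteMeasure_withDensity hWtop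
  have hlamu : lam Set.univ = W := by
    rw [hlam, withDensity_apply _ MeasurableSet.univ, Measure.restrict_univ]
  have hNlam : N = ∫⁻ s, w s ∂lam := by
    rw [hlam, lintegral_withDensity_eq_lintegral_mul P hwm hwm, hN]
    refine lintegral_congr fun s => ?_
    rw [Pi.mul_apply, sq]
  -- the moment condition
  set Λ : ℝ≥0∞ := (ENNReal.ofReal R)⁻¹ ^ m * r with hΛ
  have hmom : ∀ (V : Submodule ℝ (E d)) (s₀ : E d), Module.finrank ℝ V < k →
      ∫⁻ s, (ENNReal.ofReal (dW V (s - s₀)))⁻¹ ^ m ∂lam ≤ Λ := by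
    intro V s₀ hV
    have hdm : Measurable fun s : E d => dW V (s - s₀) := by
      have : Continuous fun s : E d => dW V (s - s₀) := by
        unfold dW
        fun_prop
      exact this.measurable
    have hfm : Measurable fun s : E d => (ENNReal.ofReal (dW V (s - s₀)))⁻¹ ^ m :=
      (hdm.ennreal_ofReal.inv).pow_const m
    have hfm' : Measurable fun s : E d => (ENNReal.ofReal (dW V (s - s₀) / R))⁻¹ ^ m :=
      ((hdm.div_const R).ennreal_ofReal.inv).pow_const m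
    rw [hlam, lintegral_withDensity_eq_lintegral_mul P hwm hfm]
    have e1 : ∀ s : E d, (ENNReal.ofReal (dW V (s - s₀)))⁻¹ ^ m =
        (ENNReal.ofReal R)⁻¹ ^ m * (ENNReal.ofReal (dW V (s - s₀) / R))⁻¹ ^ m := by
      intro s
      rw [← mul_pow, ENNReal.ofReal_div_of_pos hR, ENNReal.inv_div (Or.inl ENNReal.ofReal_ne_top)
        (Or.inl (ENNReal.ofReal_pos.2 hR).ne'), div_eq_mul_inv, ← mul_assoc,
        ENNReal.inv_mul_cancel (ENNReal.ofReal_pos.2 hR).ne' ENNReal.ofReal_ne_top, one_mul]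
    have e2 : ∀ s : E d, (w * fun s : E d => (ENNReal.ofReal (dW V (s - s₀)))⁻¹ ^ m) s =
        (ENNReal.ofReal R)⁻¹ ^ m * ((ENNReal.ofReal (dW V (s - s₀) / R))⁻¹ ^ m * w s) := by
      intro s
      rw [Pi.mul_apply, e1]; ring
    simp_rw [e2]
    have hRt : (ENNReal.ofReal R)⁻¹ ^ m ≠ ∞ :=
      ENNReal.pow_ne_top (ENNReal.inv_ne_top.2 (ENNReal.ofReal_pos.2 hR).ne')
    rw [lintegral_const_mul' _ _ hRt, hΛ]
    refine mul_le_mul_right ?_ _
    refine (P7a_cs P hfm' hwm).trans ?_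
    rw [hr, ENNReal.mul_rpow_of_nonneg _ _ (by norm_num : (0 : ℝ) ≤ 1 / 2)]
    refine mul_le_mul_left (ENNReal.rpow_le_rpow ?_ (by norm_num)) _
    refine le_trans (le_of_eq ?_) (hint V s₀ hV)
    refine lintegral_congr fun s => ?_
    rw [← pow_mul, mul_comm m 2]
  have hM := moment (m := m) (by omega : 1 ≤ k) lam Λ hmom η hη
  rw [hlamu] at hM
  -- the main inequality
  have hmeasp : ∀ c : Fin m → ℤ, Measurable fun X : Fin m → E d =>
      P {s | cell η (meas X s) = c} := by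
    intro c
    have hs : MeasurableSet {p : E d × (Fin m → E d) | cell η (meas p.2 p.1) = c} :=
      cell_meas_measurable η (measurableSet_singleton c)
    exact measurable_measure_prodMk_right hs
  have hmeas1 : Measurable fun X : Fin m → E d => ∑' c : Fin m → ℤ,
      Set.indicator {c | (X, c) ∈ G} (fun c => P {s | cell η (meas X s) = c}) c := by
    refine Measurable.ennreal_tsum fun c => ?_
    have : (fun X : Fin m → E d => Set.indicator {c | (X, c) ∈ G}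
        (fun c => P {s | cell η (meas X s) = c}) c) =
        Set.indicator {X | (X, c) ∈ G} (fun X => P {s | cell η (meas X s) = c}) := by
      funext X
      by_cases h : (X, c) ∈ G
      · rw [Set.indicator_of_mem (by exact h), Set.indicator_of_mem (by exact h)]
      · rw [Set.indicator_of_notMem (by exact h), Set.indicator_of_notMem (by exact h)]
    rw [this]
    exact (hmeasp c).indicator (measurable_prodMk_right hG)
  have hcoef : (t * θ)⁻¹ ^ (k - 1) ≠ ∞ :=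
    ENNReal.pow_ne_top (ENNReal.inv_ne_top.2 (mul_ne_zero ht0 hθ))
  have hmain : N ≤ t * q + (t * θ)⁻¹ ^ (k - 1) * (W * (ENNReal.ofReal η ^ m * Λ) ^ (k - 1)) := by
    calc N = ∫⁻ X, ∑' c : Fin m → ℤ, Set.indicator
          {c | (X, c) ∈ G ∧ θ ≤ P {s' | cell η (meas X s') = c}}
          (fun c => lam {s | cell η (meas X s) = c}) c ∂(gm d m) := by
          rw [hNlam]; exact wfun_fub P η θ G hG lam
      _ ≤ ∫⁻ X, (t * (∑' c : Fin m → ℤ, Set.indicator {c | (X, c) ∈ G}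
            (fun c => P {s | cell η (meas X s) = c}) c) +
            (t * θ)⁻¹ ^ (k - 1) * ∑' c : Fin m → ℤ, (lam {s | cell η (meas X s) = c}) ^ k)
            ∂(gm d m) := by
          refine lintegral_mono fun X => ?_
          rw [← ENNReal.tsum_mul_left, ← ENNReal.tsum_mul_left, ← ENNReal.tsum_add]
          refine ENNReal.tsum_le_tsum fun c => ?_
          by_cases h : (X, c) ∈ G ∧ θ ≤ P {s' | cell η (meas X s') = c}
          · rw [Set.indicator_of_mem (by exact h), Set.indicator_of_mem (by exact h.1)]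
            exact P7a_two_case _ _ θ t k (by omega) ht0 httop hθ hθ' h.2
          · rw [Set.indicator_of_notMem (by exact h)]
            exact zero_le
      _ = t * q + (t * θ)⁻¹ ^ (k - 1) *
            ∫⁻ X, ∑' c : Fin m → ℤ, (lam {s | cell η (meas X s) = c}) ^ k ∂(gm d m) := by
          rw [lintegral_add_left (hmeas1.const_mul t), lintegral_const_mul' _ _ httop,
            lintegral_const_mul' _ _ hcoef, hq, fub η G hG P]
      _ ≤ _ := by gcongr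
  -- simplify the second term
  have hterm : (t * θ)⁻¹ ^ (k - 1) * (W * (ENNReal.ofReal η ^ m * Λ) ^ (k - 1)) ≤ N / 2 := by
    have h1 : ENNReal.ofReal η ^ m * Λ ≤ b * θ * r := by
      rw [hΛ, ← mul_assoc, ← mul_pow]
      refine mul_le_mul_left ?_ r
      rw [← div_eq_mul_inv, ← ENNReal.ofReal_div_of_pos hR]
      exact hθb
    have h2 : (t * θ)⁻¹ * (ENNReal.ofReal η ^ m * Λ) ≤ u⁻¹ := by
      have h3 : t * θ = u * (b * θ * r) := by rw [ht]; ring
      have hc0 : b * θ * r ≠ 0 := mul_ne_zero (mul_ne_zero hb0 hθ) hr0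
      have hct : b * θ * r ≠ ∞ := ENNReal.mul_ne_top (ENNReal.mul_ne_top hb hθ') hrtop
      calc (t * θ)⁻¹ * (ENNReal.ofReal η ^ m * Λ) ≤ (t * θ)⁻¹ * (b * θ * r) :=
            mul_le_mul_right h1 _
        _ = u⁻¹ := by
            rw [h3, ENNReal.mul_inv (Or.inl hu0) (Or.inl hu), mul_assoc,
              ENNReal.inv_mul_cancel hc0 hct, mul_one]
    have h4 : (t * θ)⁻¹ ^ (k - 1) * (W * (ENNReal.ofReal η ^ m * Λ) ^ (k - 1)) ≤
        W * (u⁻¹) ^ (k - 1) := by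
      calc (t * θ)⁻¹ ^ (k - 1) * (W * (ENNReal.ofReal η ^ m * Λ) ^ (k - 1))
          = W * ((t * θ)⁻¹ * (ENNReal.ofReal η ^ m * Λ)) ^ (k - 1) := by rw [mul_pow]; ring
        _ ≤ W * (u⁻¹) ^ (k - 1) := by gcongr
    refine h4.trans ?_
    have hup0 : u ^ (k - 1) ≠ 0 := pow_ne_zero _ hu0
    have hupt : u ^ (k - 1) ≠ ∞ := ENNReal.pow_ne_top hu
    have h5 : (u⁻¹) ^ (k - 1) ≤ W / 2 := by
      rw [← ENNReal.inv_pow]
      rw [ENNReal.le_div_iff_mul_le (Or.inl (by norm_num)) (Or.inl (by norm_num))]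
      calc (u ^ (k - 1))⁻¹ * 2 ≤ (u ^ (k - 1))⁻¹ * (u ^ (k - 1) * W) := mul_le_mul_right huW _
        _ = W := by rw [← mul_assoc, ENNReal.inv_mul_cancel hup0 hupt, one_mul]
    calc W * (u⁻¹) ^ (k - 1) ≤ W * (W / 2) := mul_le_mul_right h5 _
      _ = W ^ 2 / 2 := by rw [← mul_div_assoc, sq]
      _ ≤ N / 2 := by gcongr
  have hfin1 : N ≤ t * q + N / 2 := hmain.trans (by gcongr)
  have hN2 : N / 2 ≠ ∞ := ENNReal.div_ne_top hNtop (by norm_num)
  have hfin2 : N / 2 ≤ t * q := by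
    have h6 : N / 2 + N / 2 ≤ t * q + N / 2 := by rw [ENNReal.add_halves]; exact hfin1
    exact (ENNReal.add_le_add_iff_right hN2).1 h6
  have hfin3 : N ≤ 2 * (t * q) := by
    calc N = N / 2 + N / 2 := (ENNReal.add_halves N).symm
      _ ≤ t * q + t * q := add_le_add hfin2 hfin2
      _ = 2 * (t * q) := (two_mul _).symm
  have hfin4 : N * N ≤ N * (4 * b ^ 2 * CP * u ^ 2 * q ^ 2) := by
    calc N * N ≤ (2 * (t * q)) * (2 * (t * q)) := mul_le_mul' hfin3 hfin3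
      _ = 4 * b ^ 2 * r ^ 2 * u ^ 2 * q ^ 2 := by rw [ht]; ring
      _ = N * (4 * b ^ 2 * CP * u ^ 2 * q ^ 2) := by rw [hr, P7a_sqrt_sq]; ring
  exact (ENNReal.mul_le_mul_iff_right hN0 hNtop).1 hfin4

end Crest.Agent.R322
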