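import Crest.Agent.R322.Defs

/-!
# R322 piece P8: approximation of a measurable map by one that only sees the cell

The sets `{p | (p.1, cell (η₀/2^n) p.2) ∈ G}`, `G` measurable, `n ∈ ℕ`, form an algebra (cells of side `η₀/2^(n+1)` refine cells of side
`η₀/2^n`) generating the product σ-algebra; approximate each `f ⁻¹' {v}` up to small measure (Mathlib: search
`exists_measure_symmDiff_lt`, or do it by hand with `MeasurableSpace.induction_on_inter`/ π-λ, or by outer regularity), then put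
`F = v` on the disjointified approximations.
-/

set_option autoImplicit false

namespace Crest.Agent.R322

open MeasureTheory ProbabilityTheory Crest.StreamLearn
open scoped ENNReal symmDiff

namespace P8aux

/-- sets that only see the cell of side `η` -/
def S {α : Type*} {m : ℕ} (η : ℝ) (G : Set (α × (Fin m → ℤ))) : Set (α × (Fin m → ℝ)) :=
  {p | (p.1, cell η p.2) ∈ G}

theorem measurable_cell {m : ℕ} (η : ℝ) : Measurable (cell (m := m) η) := by
  refine measurable_pi_lambda _ fun t => ?_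
  have h1 : Measurable (fun y : Fin m → ℝ => y t / η) := by fun_prop
  exact Int.measurable_floor.comp h1

theorem cell_refine {m : ℕ} (η : ℝ) (hη : 0 < η) (k : ℕ) (y : Fin m → ℝ) :
    cell η y = fun t => cell (η / 2 ^ k) y t / ((2 ^ k : ℕ) : ℤ) := by
  funext t
  unfold cell
  rw [← Int.floor_div_natCast]
  congr 1
  have h2 : (2 : ℝ) ^ k ≠ 0 := by positivity
  push_cast
  field_simp

theorem S_refine {α : Type*} [MeasurableSpace α] {m : ℕ} (η : ℝ) (hη : 0 < η) (n n' : ℕ)
    (hn : n ≤ n') (G : Set (α × (Fin m → ℤ))) (hG : MeasurableSet G) :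
    ∃ G' : Set (α × (Fin m → ℤ)), MeasurableSet G' ∧ S (η / 2 ^ n) G = S (η / 2 ^ n') G' := by
  obtain ⟨k, rfl⟩ := Nat.exists_eq_add_of_le hn
  refine ⟨(fun p : α × (Fin m → ℤ) => (p.1, fun t => p.2 t / ((2 ^ k : ℕ) : ℤ))) ⁻¹' G, ?_, ?_⟩
  · refine hG.preimage ?_
    refine measurable_fst.prodMk ?_
    refine measurable_pi_lambda _ fun t => ?_
    exact (measurable_of_countable (fun z : ℤ => z / ((2 ^ k : ℕ) : ℤ))).comp
      ((measurable_pi_apply t).comp measurable_snd)
  · ext p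
    unfold S
    simp only [Set.mem_ofPred_eq, Set.mem_preimage]
    rw [cell_refine (η / 2 ^ n) (by positivity) k p.2, div_div, ← pow_add]

/-- the ring of cell sets -/
def C (α : Type*) [MeasurableSpace α] (m : ℕ) (η : ℝ) : Set (Set (α × (Fin m → ℝ))) :=
  {A | ∃ (n : ℕ) (G : Set (α × (Fin m → ℤ))), MeasurableSet G ∧ A = S (η / 2 ^ n) G}

theorem isSetRing_C (α : Type*) [MeasurableSpace α] (m : ℕ) (η : ℝ) (hη : 0 < η) :
    IsSetRing (C α m η) where
  empty_mem := ⟨0, ∅, MeasurableSet.empty, by ext p; simp [S]⟩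
  union_mem := by
    rintro _ _ ⟨n, G, hG, rfl⟩ ⟨n', G', hG', rfl⟩
    obtain ⟨G1, hG1, h1⟩ := S_refine η hη n (max n n') (le_max_left _ _) G hG
    obtain ⟨G2, hG2, h2⟩ := S_refine η hη n' (max n n') (le_max_right _ _) G' hG'
    refine ⟨max n n', G1 ∪ G2, hG1.union hG2, ?_⟩
    rw [h1, h2]
    rfl
  sdiff_mem := by
    rintro _ _ ⟨n, G, hG, rfl⟩ ⟨n', G', hG', rfl⟩
    obtain ⟨G1, hG1, h1⟩ := S_refine η hη n (max n n') (le_max_left _ _) G hG
    obtain ⟨G2, hG2, h2⟩ := S_refine η hη n' (max n n') (le_max_right _ _) G' hG'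
    refine ⟨max n n', G1 \ G2, hG1.diff hG2, ?_⟩
    rw [h1, h2]
    rfl

theorem open_eq {m : ℕ} (η : ℝ) (hη : 0 < η) (U : Set (Fin m → ℝ)) (hU : IsOpen U) :
    U = ⋃ n : ℕ, {y | ∀ y' : Fin m → ℝ, cell (η / 2 ^ n) y' = cell (η / 2 ^ n) y → y' ∈ U} := by
  ext y
  simp only [Set.mem_iUnion, Set.mem_ofPred_eq]
  constructor
  · intro hy
    obtain ⟨δ, hδ, hball⟩ := Metric.isOpen_iff.1 hU y hy
    obtain ⟨n, hn⟩ := exists_pow_lt_of_lt_one (div_pos hδ hη) (by norm_num : (1 / 2 : ℝ) < 1)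
    have hn' : η / 2 ^ n < δ := by
      rw [lt_div_iff₀ hη] at hn
      calc η / 2 ^ n = (1 / 2) ^ n * η := by rw [div_pow, one_pow]; ring
        _ < δ := hn
    refine ⟨n, fun y' hy' => hball ?_⟩
    rw [Metric.mem_ball, dist_pi_lt_iff hδ]
    intro t
    have h1 := congrFun hy' t
    unfold cell at h1
    have hpos : 0 < η / 2 ^ n := by positivity
    have h2 : |y' t / (η / 2 ^ n) - y t / (η / 2 ^ n)| < 1 := by
      exact Int.abs_sub_lt_one_of_floor_eq_floor h1
    rw [← sub_div, abs_div, abs_of_pos hpos, div_lt_one hpos] at h2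
    rw [Real.dist_eq]
    linarith
  · rintro ⟨n, hn⟩
    exact hn y rfl

theorem generateFrom_C (α : Type*) [mα : MeasurableSpace α] (m : ℕ) (η : ℝ) (hη : 0 < η) :
    (inferInstance : MeasurableSpace (α × (Fin m → ℝ))) =
      MeasurableSpace.generateFrom (C α m η) := by
  apply le_antisymm
  · refine sup_le ?_ ?_
    · rintro _ ⟨B, hB, rfl⟩
      apply MeasurableSpace.measurableSet_generateFrom
      refine ⟨0, Prod.fst ⁻¹' B, measurable_fst hB, ?_⟩
      ext p
      simp [S]
    · rw [MeasurableSpace.comap_le_iff_le_map]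
      rw [BorelSpace.measurable_eq (α := Fin m → ℝ)]
      refine MeasurableSpace.generateFrom_le ?_
      intro U hU
      change MeasurableSet[MeasurableSpace.generateFrom (C α m η)] (Prod.snd ⁻¹' U)
      rw [open_eq η hη U hU, Set.preimage_iUnion]
      refine MeasurableSet.iUnion fun n => ?_
      apply MeasurableSpace.measurableSet_generateFrom
      refine ⟨n, Prod.snd ⁻¹' {c | ∀ y' : Fin m → ℝ, cell (η / 2 ^ n) y' = c → y' ∈ U},
        measurable_snd ?_, ?_⟩
      · exact Set.Countable.measurableSet (Set.to_countable _)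
      · ext p
        simp [S]
  · refine MeasurableSpace.generateFrom_le ?_
    rintro _ ⟨n, G, hG, rfl⟩
    have h1 : Measurable (fun p : α × (Fin m → ℝ) => (p.1, cell (η / 2 ^ n) p.2)) :=
      measurable_fst.prodMk ((measurable_cell _).comp measurable_snd)
    exact h1 hG

end P8aux

open P8aux in
theorem approx_cell {α : Type*} [MeasurableSpace α] {m : ℕ} (ρ : Measure (α × (Fin m → ℝ)))
    [IsFiniteMeasure ρ] {V : Type} [Fintype V] [Nonempty V] (f : α × (Fin m → ℝ) → V)
    (hf : ∀ v, MeasurableSet (f ⁻¹' {v})) (ε : ℝ≥0∞) (hε : 0 < ε) (η₀ : ℝ) (hη₀ : 0 < η₀) :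
    ∃ η : ℝ, 0 < η ∧ η ≤ η₀ ∧ ∃ F : α × (Fin m → ℤ) → V, (∀ v, MeasurableSet (F ⁻¹' {v})) ∧
      ρ {p | f p ≠ F (p.1, cell η p.2)} ≤ ε := by
  classical
  have hcard : (Fintype.card V : ℝ≥0∞) ≠ 0 := by
    exact_mod_cast Fintype.card_ne_zero
  have hcard' : (Fintype.card V : ℝ≥0∞) ≠ ⊤ := ENNReal.natCast_ne_top _
  have hε' : 0 < ε / Fintype.card V := ENNReal.div_pos hε.ne' hcard'
  have h1 : ∀ v : V, ∃ (n : ℕ) (G : Set (α × (Fin m → ℤ))), MeasurableSet G ∧
      ρ (S (η₀ / 2 ^ n) G ∆ (f ⁻¹' {v})) < ε / Fintype.card V := by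
    intro v
    obtain ⟨t, ⟨n, G, hG, rfl⟩, ht⟩ := exists_measure_symmDiff_lt_of_generateFrom_isSetRing
      (μ := ρ) (isSetRing_C α m η₀ hη₀)
      ⟨{Set.univ}, Set.countable_singleton _, by
        rw [Set.singleton_subset_iff]
        exact ⟨0, Set.univ, MeasurableSet.univ, by ext p; simp [S]⟩, by simp⟩
      (generateFrom_C α m η₀ hη₀) (hf v) hε'
    exact ⟨n, G, hG, ht⟩
  choose n G hG hGlt using h1
  set n₀ : ℕ := Finset.univ.sup n with hn₀
  have h2 : ∀ v : V, ∃ G' : Set (α × (Fin m → ℤ)), MeasurableSet G' ∧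
      S (η₀ / 2 ^ n v) (G v) = S (η₀ / 2 ^ n₀) G' := fun v =>
    S_refine η₀ hη₀ (n v) n₀ (Finset.le_sup (Finset.mem_univ v)) (G v) (hG v)
  choose G' hG' hGG' using h2
  -- enumeration of `V`
  set N := Fintype.card V with hN
  have eV : V ≃ Fin N := Fintype.equivFin V
  set e : ℕ → V := fun k => if h : k < N then eV.symm ⟨k, h⟩ else Classical.arbitrary V with he
  have hex : ∀ x : α × (Fin m → ℤ), ∃ k, (x ∈ G' (e k) ∨ N ≤ k) := fun x => ⟨N, Or.inr le_rfl⟩
  let _ : MeasurableSpace V := ⊤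
  set F : α × (Fin m → ℤ) → V := fun x => e (Nat.find (hex x)) with hF
  have hFm : Measurable F := by
    refine Measurable.find (f := fun k _ => e k) (p := fun k x => x ∈ G' (e k) ∨ N ≤ k)
      (fun k => measurable_const) (fun k => ?_) hex
    by_cases hk : N ≤ k
    · simp [hk]
    · simpa [hk] using hG' (e k)
  refine ⟨η₀ / 2 ^ n₀, by positivity, ?_, F, fun v => hFm trivial, ?_⟩
  · exact div_le_self hη₀.le (one_le_pow₀ (by norm_num))
  · have hsub : {p | f p ≠ F (p.1, cell (η₀ / 2 ^ n₀) p.2)} ⊆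
        ⋃ v ∈ (Finset.univ : Finset V), (S (η₀ / 2 ^ n₀) (G' v) ∆ (f ⁻¹' {v})) := by
      intro p hp
      by_contra hcon
      apply hp
      simp only [Set.mem_iUnion, not_exists, Finset.mem_univ] at hcon
      have h3 : ∀ v, (p.1, cell (η₀ / 2 ^ n₀) p.2) ∈ G' v ↔ f p = v := by
        intro v
        have h4 := hcon v (by trivial)
        rw [Set.mem_symmDiff] at h4
        constructor
        · intro h5
          by_contra h6
          exact h4 (Or.inl ⟨h5, h6⟩)
        · intro h5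
          by_contra h6
          exact h4 (Or.inr ⟨h5, h6⟩)
      set x : α × (Fin m → ℤ) := (p.1, cell (η₀ / 2 ^ n₀) p.2) with hx
      have h5 : Nat.find (hex x) ≤ (eV (f p)).val := by
        apply Nat.find_min'
        left
        rw [h3, he]
        simp only [Fin.is_lt, dif_pos, Fin.eta, Equiv.symm_apply_apply]
      have h6 := Nat.find_spec (hex x)
      rcases h6 with h6 | h6
      · exact (h3 _).1 h6
      · have := (eV (f p)).isLt
        omega
    calc ρ {p | f p ≠ F (p.1, cell (η₀ / 2 ^ n₀) p.2)}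
        ≤ ρ (⋃ v ∈ (Finset.univ : Finset V), (S (η₀ / 2 ^ n₀) (G' v) ∆ (f ⁻¹' {v}))) :=
          measure_mono hsub
      _ ≤ ∑ v ∈ (Finset.univ : Finset V), ρ (S (η₀ / 2 ^ n₀) (G' v) ∆ (f ⁻¹' {v})) :=
          measure_biUnion_finset_le _ _
      _ ≤ ∑ v ∈ (Finset.univ : Finset V), ε / Fintype.card V := by
          refine Finset.sum_le_sum fun v _ => ?_
          rw [← hGG' v]
          exact (hGlt v).le
      _ = ε := by
          rw [Finset.sum_const, Finset.card_univ, nsmul_eq_mul]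
          exact ENNReal.mul_div_cancel hcard hcard'

end Crest.Agent.R322
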