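import Crest.Agent.R322.P3bInt
import Crest.Agent.R322.P6cBad
import Crest.Agent.R322.P7aNbound
import Crest.Agent.R322.P8Approx

/-!
# R322 piece P7b: the window lemma

Law of `(X, meas X s)` under `gm ⊗ P`; `approx_cell` with `ε = 2^{-d}`, `η₀ = R` gives `η, F`.  `θ = 2^{-18d} (η/R)^m`, `b = 2^{18 d}`,
`CP = 2^(2m+3+k+g)`, `u = 2^e`, `G_v = F ⁻¹' {v}`, `w_v = wfun P η θ G_v`, `q_v = ∫ gm {F = v} dP` (`Σ q_v = 1`).
`ℓ⁰_v(s) = gm {X | f (X, meas X s) = v ∧ F (X, cell) = v ∧ θ ≤ P(cell)} · 1[w_v(s) ≤ 2^(K₁+d) q_v]`, `2^{K₁} = 4 b² CP u²`;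
`ℓ_v = ℓ⁰_v` if `q_v ≥ 2^{-d-a}` and `∫ ℓ⁰_v ≥ 2^{-d} q_v`, else `0`.  Then `ℓ_v ≤ w_v ≤ 2^(K₁+d) q_v ≤ 2^(K₁+2d) ∫ ℓ_v`.
Losses: `f ≠ F` (`2^{-d}`), bad cells (`2·2^{-d}`), `q_v` small (`2^{-d}`), `w_v(s)` too large (Markov with `Nbound`, `2^{-d}`; `Nbound` applies because
`∫ w_v ≥ ∫ ℓ⁰_v ≥ 2^{-d} q_v ≥ 2^{-2d-a}` -- if `∫ w_v < 2^{-d} q_v` the whole `v` is lost, total `≤ 2^{-d}`), `∫ ℓ⁰_v` small (`2^{-d}`).
-/

set_option autoImplicit false

namespace Crest.Agent.R322

open MeasureTheory ProbabilityTheory Crest.StreamLearn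
open scoped ENNReal

theorem window {d m k g a e : ℕ} (hm : 1 ≤ m) (hmd : m ≤ d) (hk : 2 ≤ k) (hgk : k + 4 * m ≤ g)
    (P : Measure (E d)) [IsProbabilityMeasure P] {z : E d} {R : ℝ} (hP : Nice g P z R)
    {V : Type} [Fintype V] (hV : Fintype.card V ≤ 2 ^ a) (he : a + 2 * d + 1 ≤ e * (k - 1))
    (f : (Fin m → E d) × (Fin m → ℝ) → V) (hf : ∀ v, MeasurableSet (f ⁻¹' {v})) :
    ∃ ℓ : V → E d → ℝ≥0∞, (∀ v, Measurable (ℓ v)) ∧
      (∀ v s, ℓ v s ≤ gm d m {X | f (X, meas X s) = v}) ∧
      (∀ v s, ℓ v s ≤ 2 ^ (38 * d + 2 * m + k + g + 2 * e + 5) * ∫⁻ s', ℓ v s' ∂P) ∧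
      1 ≤ ∑ v, ∫⁻ s, ℓ v s ∂P + 8 * (2⁻¹ : ℝ≥0∞) ^ d := by
  classical
  have hd : 1 ≤ d := hm.trans hmd
  have hR := hP.pos
  set κ : ℝ≥0∞ := (2⁻¹ : ℝ≥0∞) ^ d with hκ
  have hκ0 : 0 < κ := by
    rw [hκ]; exact ENNReal.pow_pos (by simp) _
  have hκ2 : κ * 2 ^ d = 1 := by
    rw [hκ, ← mul_pow, ENNReal.inv_mul_cancel (by norm_num) (by norm_num), one_pow]
  have hκt : κ ≠ ∞ := by
    rw [hκ]; exact ENNReal.pow_ne_top (by simp)
  have : Nonempty V := ⟨f (fun _ => 0, fun _ => 0)⟩
  -- the joint law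
  have hmeas : Measurable fun p : E d × (Fin m → E d) => (p.2, meas p.2 p.1) := by
    refine measurable_snd.prodMk (measurable_pi_lambda _ fun t => ?_)
    unfold meas
    exact ((measurable_pi_apply t).comp measurable_snd).inner measurable_fst
  set Q : Measure (E d × (Fin m → E d)) := P.prod (gm d m) with hQ
  set ρ : Measure ((Fin m → E d) × (Fin m → ℝ)) :=
    Q.map (fun p => (p.2, meas p.2 p.1)) with hρ
  have : IsProbabilityMeasure ρ := Measure.isProbabilityMeasure_map hmeas.aemeasurable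
  obtain ⟨η, hη, hηR, F, hF, hFf⟩ := approx_cell ρ f hf κ hκ0 R hR
  set θ : ℝ≥0∞ := (2⁻¹ : ℝ≥0∞) ^ (18 * d) * ENNReal.ofReal (η / R) ^ m with hθ
  have hθ0 : θ ≠ 0 := by
    rw [hθ]
    refine mul_ne_zero (pow_ne_zero _ (by simp)) (pow_ne_zero _ ?_)
    rw [Ne, ENNReal.ofReal_eq_zero, not_le]
    exact div_pos hη hR
  have hθt : θ ≠ ∞ := by
    rw [hθ]
    exact ENNReal.mul_ne_top (ENNReal.pow_ne_top (by simp)) (ENNReal.pow_ne_top (by simp))
  let G : V → Set ((Fin m → E d) × (Fin m → ℤ)) := fun v => F ⁻¹' {v}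
  let w : V → E d → ℝ≥0∞ := fun v => wfun P η θ (G v)
  let q : V → ℝ≥0∞ := fun v => ∫⁻ s, gm d m {X | (X, cell η (meas X s)) ∈ G v} ∂P
  have hw : ∀ v, Measurable (w v) := fun v => wfun_measurable P η θ (G v) (hF v)
  have hwq : ∀ v, ∫⁻ s, w v s ∂P ≤ q v := fun v =>
    lintegral_mono fun s => measure_mono fun X hX => hX.1
  -- events
  let EF : V → Set (E d × (Fin m → E d)) := fun v => {p | (p.2, cell η (meas p.2 p.1)) ∈ G v}
  have hEF : ∀ v, MeasurableSet (EF v) := fun v => event_measurable η (G v) (hF v)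
  let Ef : V → Set (E d × (Fin m → E d)) := fun v => {p | f (p.2, meas p.2 p.1) = v}
  have hEf : ∀ v, MeasurableSet (Ef v) := fun v => hmeas (hf v)
  let Hv : Set (E d × (Fin m → E d)) :=
    {p | θ ≤ P {s' | cell η (meas p.2 s') = cell η (meas p.2 p.1)}}
  have hHv : MeasurableSet Hv :=
    event_measurable η _ (heavy_measurable P η θ)
  have hq : ∀ v, q v = Q (EF v) := by
    intro v
    rw [hQ, Measure.prod_apply (hEF v)]
    rfl
  have hqsum : ∑ v, q v = 1 := by
    have h1 := sum_measure_preimage_singleton (μ := Q) (Finset.univ : Finset V)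
      (f := fun p : E d × (Fin m → E d) => F (p.2, cell η (meas p.2 p.1))) (fun v _ => hEF v)
    rw [Finset.coe_univ, Set.preimage_univ, measure_univ] at h1
    rw [← h1]
    exact Finset.sum_congr rfl fun v _ => hq v
  have hq1 : ∀ v, q v ≤ 1 := fun v => by
    rw [← hqsum]
    exact Finset.single_le_sum (f := q) (fun _ _ => zero_le) (Finset.mem_univ v)
  have hqt : ∀ v, q v ≠ ∞ := fun v => ne_top_of_le_ne_top ENNReal.one_ne_top (hq1 v)
  -- truncated functions
  let Av : V → E d → ℝ≥0∞ := fun v s =>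
    gm d m {X | f (X, meas X s) = v ∧ (X, cell η (meas X s)) ∈ G v ∧
      θ ≤ P {s' | cell η (meas X s') = cell η (meas X s)}}
  have hAset : ∀ v, MeasurableSet (Ef v ∩ (EF v ∩ Hv)) := fun v =>
    (hEf v).inter ((hEF v).inter hHv)
  have hAm : ∀ v, Measurable (Av v) := fun v => measurable_measure_prodMk_left (hAset v)
  have hAQ : ∀ v, ∫⁻ s, Av v s ∂P = Q (Ef v ∩ (EF v ∩ Hv)) := by
    intro v
    rw [hQ, Measure.prod_apply (hAset v)]
    rfl
  have hAw : ∀ v s, Av v s ≤ w v s := fun v s => measure_mono fun X hX => hX.2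
  set K₁ : ℕ := 36 * d + 2 * m + k + g + 2 * e + 5 with hK₁
  let c : V → ℝ≥0∞ := fun v => 2 ^ (K₁ + d) * q v
  let l0 : V → E d → ℝ≥0∞ := fun v => Set.indicator {s | w v s ≤ c v} (Av v)
  have hcs : ∀ v, MeasurableSet {s | w v s ≤ c v} := fun v =>
    measurableSet_le (hw v) measurable_const
  have hl0m : ∀ v, Measurable (l0 v) := fun v => (hAm v).indicator (hcs v)
  have hl0A : ∀ v s, l0 v s ≤ Av v s := fun v s => Set.indicator_le_self _ _ s
  have hl0c : ∀ v s, l0 v s ≤ c v := by
    intro v s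
    by_cases h : w v s ≤ c v
    · exact (hl0A v s).trans ((hAw v s).trans h)
    · have : l0 v s = 0 := Set.indicator_of_notMem (show s ∉ {s | w v s ≤ c v} from h) _
      rw [this]
      exact zero_le
  let ok : V → Prop := fun v => κ * (2⁻¹) ^ a ≤ q v ∧ κ * q v ≤ ∫⁻ s, l0 v s ∂P
  let ℓ : V → E d → ℝ≥0∞ := fun v => if ok v then l0 v else 0
  have hℓpos : ∀ v, ok v → ℓ v = l0 v := fun v h => if_pos h
  have hℓneg : ∀ v, ¬ ok v → ℓ v = 0 := fun v h => if_neg h
  refine ⟨ℓ, ?_, ?_, ?_, ?_⟩
  · intro v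
    by_cases h : ok v
    · rw [hℓpos v h]; exact hl0m v
    · rw [hℓneg v h]; exact measurable_zero
  · intro v s
    by_cases h : ok v
    · rw [hℓpos v h]
      exact (hl0A v s).trans (measure_mono fun X hX => hX.1)
    · rw [hℓneg v h]
      exact zero_le
  · intro v s
    by_cases h : ok v
    · rw [hℓpos v h]
      calc l0 v s ≤ 2 ^ (K₁ + d) * q v := hl0c v s
        _ = 2 ^ (K₁ + 2 * d) * (κ * q v) := by
            have : (2 : ℝ≥0∞) ^ (K₁ + 2 * d) = 2 ^ (K₁ + d) * 2 ^ d := by
              rw [← pow_add]; congr 1; ring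
            rw [this]
            calc (2 : ℝ≥0∞) ^ (K₁ + d) * q v = 2 ^ (K₁ + d) * (κ * 2 ^ d) * q v := by
                  rw [hκ2, mul_one]
              _ = _ := by ring
        _ ≤ 2 ^ (K₁ + 2 * d) * ∫⁻ s, l0 v s ∂P := by gcongr; exact h.2
        _ = _ := by
            congr 2
            rw [hK₁]; ring
    · rw [hℓneg v h]
      exact zero_le
  · -- the losses
    have hκa : κ * (2⁻¹ : ℝ≥0∞) ^ a * (Fintype.card V : ℝ≥0∞) ≤ κ := by
      have h1 : (Fintype.card V : ℝ≥0∞) ≤ 2 ^ a := by exact_mod_cast hV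
      calc κ * (2⁻¹ : ℝ≥0∞) ^ a * (Fintype.card V : ℝ≥0∞) ≤ κ * (2⁻¹ : ℝ≥0∞) ^ a * 2 ^ a := by
            gcongr
        _ = κ := by
            rw [mul_assoc, ← mul_pow, ENNReal.inv_mul_cancel (by norm_num) (by norm_num), one_pow,
              mul_one]
    have hv : ∀ v, ∫⁻ s, Av v s ∂P ≤ ∫⁻ s, ℓ v s ∂P + (2 * (κ * q v) + κ * (2⁻¹) ^ a) := by
      intro v
      have hAwi : ∫⁻ s, Av v s ∂P ≤ ∫⁻ s, w v s ∂P := lintegral_mono (hAw v)
      by_cases h1 : κ * (2⁻¹) ^ a ≤ q v
      · by_cases h2 : κ * q v ≤ ∫⁻ s, w v s ∂P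
        · -- Nbound applies
          have hq0 : q v ≠ 0 := by
            intro h0
            rw [h0] at h1
            have : κ * (2⁻¹ : ℝ≥0∞) ^ a = 0 := le_antisymm h1 zero_le
            rcases mul_eq_zero.1 this with h | h
            · exact hκ0.ne' h
            · exact (pow_ne_zero a (by simp)) h
          have hN := Nbound (k := k) hk P hR hη (2 ^ (2 * m + 3 + k + g)) (by simp)
            (one_le_pow₀ (by norm_num)) (fun W s₀ hW => nc_int hm hgk P hP W hW.le s₀)
            θ (2 ^ (18 * d)) hθ0 hθt (by simp)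
            (by
              rw [hθ, ← mul_assoc, ← mul_pow, ENNReal.mul_inv_cancel (by norm_num) (by norm_num),
                one_pow, one_mul])
            (G v) (hF v) (2 ^ e) (by simp)
            (by
              have h3 : (2 : ℝ≥0∞) ≤ (2 ^ e) ^ (k - 1) * (κ * (κ * (2⁻¹) ^ a)) := by
                rw [← pow_mul]
                calc (2 : ℝ≥0∞) = 2 ^ (a + 2 * d + 1) * (κ * (κ * (2⁻¹) ^ a)) := by
                      have h4 : (2 : ℝ≥0∞) ^ (a + 2 * d + 1) = 2 ^ a * (2 ^ d * 2 ^ d) * 2 := by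
                        rw [← pow_add, ← pow_add, ← pow_succ]
                        congr 1; ring
                      have h5 : (2⁻¹ : ℝ≥0∞) ^ a * 2 ^ a = 1 := by
                        rw [← mul_pow, ENNReal.inv_mul_cancel (by norm_num) (by norm_num), one_pow]
                      rw [h4]
                      calc (2 : ℝ≥0∞) = ((2⁻¹ : ℝ≥0∞) ^ a * 2 ^ a) * (κ * 2 ^ d) * (κ * 2 ^ d) * 2 := by
                            rw [h5, hκ2]; simp
                        _ = _ := by ring
                  _ ≤ _ := by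
                      gcongr
                      norm_num
              refine h3.trans ?_
              gcongr
              exact (mul_le_mul_right h1 κ).trans h2)
          have hN' : ∫⁻ s, w v s ^ 2 ∂P ≤ 2 ^ K₁ * q v ^ 2 := by
            refine hN.trans (le_of_eq ?_)
            congr 1
            rw [← pow_mul, ← pow_mul]
            have : (4 : ℝ≥0∞) = 2 ^ 2 := by norm_num
            rw [this, ← pow_add, ← pow_add, ← pow_add, hK₁]
            congr 1; ring
          have hc0 : c v ≠ 0 := mul_ne_zero (pow_ne_zero _ (by norm_num)) hq0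
          have hct : c v ≠ ∞ := ENNReal.mul_ne_top (by simp) (hqt v)
          have hMk : ∫⁻ s, Set.indicator {s | c v < w v s} (w v) s ∂P ≤ κ * q v := by
            have h3 : c v * ∫⁻ s, Set.indicator {s | c v < w v s} (w v) s ∂P ≤
                c v * (κ * q v) := by
              rw [← lintegral_const_mul' _ _ hct]
              calc ∫⁻ s, c v * Set.indicator {s | c v < w v s} (w v) s ∂P
                  ≤ ∫⁻ s, w v s ^ 2 ∂P := by
                    refine lintegral_mono fun s => ?_
                    by_cases h : c v < w v s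
                    · rw [Set.indicator_of_mem (by exact h), sq]
                      gcongr
                    · rw [Set.indicator_of_notMem (by exact h), mul_zero]
                      exact zero_le
                _ ≤ 2 ^ K₁ * q v ^ 2 := hN'
                _ = c v * (κ * q v) := by
                    have h4 : c v = 2 ^ K₁ * 2 ^ d * q v := by
                      simp only [c]; rw [pow_add]
                    rw [h4]
                    calc (2 : ℝ≥0∞) ^ K₁ * q v ^ 2 = 2 ^ K₁ * (κ * 2 ^ d) * q v ^ 2 := by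
                          rw [hκ2, mul_one]
                      _ = _ := by ring
            exact (ENNReal.mul_le_mul_iff_right hc0 hct).1 h3
          have hAl : ∫⁻ s, Av v s ∂P ≤ ∫⁻ s, l0 v s ∂P + κ * q v := by
            calc ∫⁻ s, Av v s ∂P
                ≤ ∫⁻ s, (l0 v s + Set.indicator {s | c v < w v s} (w v) s) ∂P := by
                  refine lintegral_mono fun s => ?_
                  by_cases h : w v s ≤ c v
                  · have : l0 v s = Av v s := Set.indicator_of_mem (by exact h) _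
                    rw [this]
                    exact le_self_add
                  · rw [Set.indicator_of_mem (show s ∈ {s | c v < w v s} from not_le.1 h)]
                    exact (hAw v s).trans le_add_self
              _ = ∫⁻ s, l0 v s ∂P + ∫⁻ s, Set.indicator {s | c v < w v s} (w v) s ∂P :=
                  lintegral_add_left (hl0m v) _
              _ ≤ _ := by gcongr
          by_cases h3 : κ * q v ≤ ∫⁻ s, l0 v s ∂P
          · rw [hℓpos v ⟨h1, h3⟩]
            refine hAl.trans ?_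
            gcongr
            rw [two_mul, add_assoc]
            exact le_self_add
          · refine hAl.trans ?_
            calc ∫⁻ s, l0 v s ∂P + κ * q v ≤ κ * q v + κ * q v := by
                  gcongr
                  exact (not_le.1 h3).le
              _ = 2 * (κ * q v) := (two_mul _).symm
              _ ≤ _ := le_self_add.trans le_add_self
        · refine hAwi.trans ((not_le.1 h2).le.trans ?_)
          calc κ * q v ≤ 2 * (κ * q v) := by
                rw [two_mul]; exact le_self_add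
            _ ≤ _ := le_self_add.trans le_add_self
      · refine hAwi.trans ((hwq v).trans ((not_le.1 h1).le.trans ?_))
        exact le_add_self.trans le_add_self
    have hsumA : ∑ v, ∫⁻ s, Av v s ∂P ≤ ∑ v, ∫⁻ s, ℓ v s ∂P + 3 * κ := by
      calc ∑ v, ∫⁻ s, Av v s ∂P
          ≤ ∑ v, (∫⁻ s, ℓ v s ∂P + (2 * (κ * q v) + κ * (2⁻¹) ^ a)) :=
            Finset.sum_le_sum fun v _ => hv v
        _ = ∑ v, ∫⁻ s, ℓ v s ∂P + (2 * (κ * ∑ v, q v) +
              κ * (2⁻¹) ^ a * (Fintype.card V : ℝ≥0∞)) := by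
            rw [Finset.sum_add_distrib, Finset.sum_add_distrib, ← Finset.mul_sum,
              ← Finset.mul_sum, Finset.sum_const, Finset.card_univ, nsmul_eq_mul]
            ring
        _ ≤ ∑ v, ∫⁻ s, ℓ v s ∂P + (2 * (κ * 1) + κ) := by
            rw [hqsum]
            gcongr
        _ = _ := by ring
    -- the bad events
    have hB1 : Q {p | f (p.2, meas p.2 p.1) ≠ F (p.2, cell η (meas p.2 p.1))} ≤ κ := by
      have hcell : Measurable fun p : (Fin m → E d) × (Fin m → ℝ) => (p.1, cell η p.2) := by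
        refine measurable_fst.prodMk (measurable_pi_lambda _ fun t => ?_)
        unfold cell
        have h1 : Measurable fun p : (Fin m → E d) × (Fin m → ℝ) => p.2 t :=
          (measurable_pi_apply t).comp measurable_snd
        exact Int.measurable_floor.comp (h1.div_const η)
      have hms : MeasurableSet {p : (Fin m → E d) × (Fin m → ℝ) | f p ≠ F (p.1, cell η p.2)} := by
        have h1 : {p : (Fin m → E d) × (Fin m → ℝ) | f p ≠ F (p.1, cell η p.2)} =
            (⋃ v, (f ⁻¹' {v} ∩ (fun p : (Fin m → E d) × (Fin m → ℝ) => (p.1, cell η p.2)) ⁻¹'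
              (F ⁻¹' {v})))ᶜ := by
          ext p
          simp only [Set.mem_ofPred_eq, Set.mem_compl_iff, Set.mem_iUnion, Set.mem_inter_iff,
            Set.mem_preimage, Set.mem_singleton_iff, not_exists, not_and]
          constructor
          · intro h v hv hv'
            exact h (hv.trans hv'.symm)
          · intro h h'
            exact h _ rfl h'.symm
        rw [h1]
        exact (MeasurableSet.iUnion fun v => (hf v).inter (hcell (hF v))).compl
      have h1 := hFf
      rw [hρ, Measure.map_apply hmeas hms] at h1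
      exact h1
    have hB2 : Q Hvᶜ ≤ 2 * κ := by
      have h1 := bad_cells (m := m) hmd hd P hR hP.supp hη hηR
      rw [hQ, Measure.prod_apply hHv.compl]
      refine le_trans (le_of_eq ?_) h1
      refine lintegral_congr fun s => ?_
      congr 1
      ext X
      simp only [Hv, Set.mem_preimage, Set.mem_compl_iff, Set.mem_ofPred_eq, not_le]
      rfl
    have hcover : (Set.univ : Set (E d × (Fin m → E d))) ⊆
        (⋃ v, (Ef v ∩ (EF v ∩ Hv))) ∪
        ({p | f (p.2, meas p.2 p.1) ≠ F (p.2, cell η (meas p.2 p.1))} ∪ Hvᶜ) := by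
      intro p _
      by_cases h1 : f (p.2, meas p.2 p.1) = F (p.2, cell η (meas p.2 p.1))
      · by_cases h2 : p ∈ Hv
        · left
          rw [Set.mem_iUnion]
          exact ⟨f (p.2, meas p.2 p.1), rfl, h1.symm, h2⟩
        · right; right; exact h2
      · right; left; exact h1
    calc (1 : ℝ≥0∞) = Q Set.univ := measure_univ.symm
      _ ≤ Q (⋃ v, (Ef v ∩ (EF v ∩ Hv))) +
          (Q {p | f (p.2, meas p.2 p.1) ≠ F (p.2, cell η (meas p.2 p.1))} + Q Hvᶜ) := by
          refine (measure_mono hcover).trans ((measure_union_le _ _).trans ?_)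
          gcongr
          exact measure_union_le _ _
      _ ≤ ∑ v, Q (Ef v ∩ (EF v ∩ Hv)) + (κ + 2 * κ) := by
          gcongr
          exact measure_iUnion_fintype_le _ _
      _ = ∑ v, ∫⁻ s, Av v s ∂P + 3 * κ := by
          simp_rw [hAQ]
          ring
      _ ≤ (∑ v, ∫⁻ s, ℓ v s ∂P + 3 * κ) + 3 * κ := by gcongr
      _ = ∑ v, ∫⁻ s, ℓ v s ∂P + 6 * κ := by ring
      _ ≤ ∑ v, ∫⁻ s, ℓ v s ∂P + 8 * κ := by
          gcongr
          norm_num

end Crest.Agent.R322
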